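import Mathlib

/-! Memory-bounded one-pass learners for noiseless Gaussian linear regression. -/

namespace Vale.Agent.P309b

open MeasureTheory ProbabilityTheory
open scoped RealInnerProductSpace

/-- Euclidean space of dimension `d` -/
abbrev E (d : ℕ) := EuclideanSpace ℝ (Fin d)

/-- the Euclidean unit sphere -/
abbrev Sph (d : ℕ) := Metric.sphere (0 : E d) 1

/-- the uniform probability measure on the unit sphere (normalised cone measure) -/
noncomputable def unif (d : ℕ) : Measure (Sph d) :=
  ((volume : Measure (E d)).toSphere Set.univ)⁻¹ • (volume : Measure (E d)).toSphere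

/-- A learner with `M` bits of memory. All of its randomness is a seed `ω : Ω`; the initial
state, the transition rule, the stopping rule and the output rule may all read the seed. The rules
also read the index (first argument) and the current state. -/
structure Learner (d M : ℕ) (Ω : Type*) [MeasurableSpace Ω] where
  init : Ω → Fin (2 ^ M)
  step : ℕ → Fin (2 ^ M) → Ω × (E d × ℝ) → Fin (2 ^ M)
  stop : ℕ → Fin (2 ^ M) → Ω × (E d × ℝ) → Bool
  out : ℕ → Fin (2 ^ M) → Ω → Sph d
  measurable_init : Measurable init
  measurable_step : ∀ t w, Measurable (step t w)
  measurable_stop : ∀ t w, Measurable (stop t w)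
  measurable_out : ∀ t w, Measurable (out t w)

variable {d M : ℕ} {Ω : Type*} [MeasurableSpace Ω]

/-- The output of the learner with seed `ω` that has read `t` pairs, is in state `w`, and still
has the given list of pairs to read: it reads the next pair, moves to the new state, and either
stops and outputs or goes on; when the list is exhausted it outputs. -/
def Learner.run (L : Learner d M Ω) (ω : Ω) : ℕ → Fin (2 ^ M) → List (E d × ℝ) → Sph d
  | t, w, [] => L.out t w ω
  | t, w, p :: ps =>
    if L.stop t w (ω, p) = true then L.out (t + 1) (L.step t w (ω, p)) ω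
    else L.run ω (t + 1) (L.step t w (ω, p)) ps

/-- the estimate produced from the seed `ω`, the signal `s` and the rows `x` -/
noncomputable def Learner.estimate (L : Learner d M Ω) {T : ℕ} (ω : Ω) (s : Sph d)
    (x : Fin T → E d) : Sph d :=
  L.run ω 0 (L.init ω) (List.ofFn fun i => (x i, ⟪x i, (s : E d)⟫))

/-- With independent seed, uniform signal and `T` standard Gaussian rows, the angle between the
estimate and the signal is at most `ε` with probability at least `2 / 3`. -/
def Learner.Succeeds (L : Learner d M Ω) (P : Measure Ω) (T : ℕ) (ε : ℝ) : Prop :=
  2 / 3 ≤ (P.prod ((unif d).prod (Measure.pi fun _ : Fin T => stdGaussian (E d))))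
    {q | Real.arccos ⟪(L.estimate q.1 q.2.1 q.2.2 : E d), (q.2.1 : E d)⟫ ≤ ε}

end Vale.Agent.P309b
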