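import Vale.Agent.P309b.Gauss

/-! The expected volume of the set of possible label vectors. -/

namespace Vale.Agent.P309b

open MeasureTheory ProbabilityTheory Set Metric
open scoped RealInnerProductSpace ENNReal

theorem volume_image_le {H : Type*} [NormedAddCommGroup H] [InnerProductSpace ℝ H] {k : ℕ}
    (a : Fin k → H) (ha : LinearIndependent ℝ a) (c : ℝ) :
    volume {y : Fin k → ℝ | ∃ u : H, ‖u‖ ^ 2 ≤ c ∧ ∀ j, y j = ⟪a j, u⟫} ≤
      ENNReal.ofReal (∏ j, ‖a j‖) * volume {z : Fin k → ℝ | ∑ i, z i ^ 2 ≤ c} := by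
  let W := Submodule.span ℝ (range a)
  have : FiniteDimensional ℝ W := FiniteDimensional.span_of_finite ℝ (finite_range a)
  have hW : Module.finrank ℝ W = k := by
    rw [finrank_span_eq_card ha, Fintype.card_fin]
  have : Fact (Module.finrank ℝ W = k) := ⟨hW⟩
  let b : OrthonormalBasis (Fin k) ℝ W := (stdOrthonormalBasis ℝ W).reindex (finCongr hW)
  let a' : Fin k → W := fun j => ⟨a j, Submodule.subset_span ⟨j, rfl⟩⟩
  let L : Matrix (Fin k) (Fin k) ℝ := (b.toBasis.toMatrix a').transpose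
  have hdet : |L.det| ≤ ∏ j, ‖a j‖ := by
    have h1 := (b.toBasis.orientation).abs_volumeForm_apply_le a'
    rw [Orientation.volumeForm_robust' _ b, Module.Basis.det_apply] at h1
    rw [Matrix.det_transpose]
    exact h1
  have hsub : {y : Fin k → ℝ | ∃ u : H, ‖u‖ ^ 2 ≤ c ∧ ∀ j, y j = ⟪a j, u⟫} ⊆
      Matrix.toLin' L '' {z : Fin k → ℝ | ∑ i, z i ^ 2 ≤ c} := by
    rintro y ⟨u, hu, hy⟩
    refine ⟨fun i => ⟪(b i : H), u⟫, ?_, funext fun j => ?_⟩
    · have ho : Orthonormal ℝ fun i => (b i : H) :=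
        b.orthonormal.comp_linearIsometry W.subtypeₗᵢ
      have h1 := ho.sum_inner_products_le (s := Finset.univ) u
      simp only [Real.norm_eq_abs, sq_abs] at h1
      exact h1.trans hu
    · have h1 : a j = ∑ i, b.repr (a' j) i • (b i : H) := by
        have h2 := congrArg Subtype.val (b.sum_repr (a' j))
        simpa using h2.symm
      rw [hy j, h1, sum_inner]
      simp [L, Matrix.mulVec, dotProduct, Module.Basis.toMatrix_apply, real_inner_smul_left]
  refine (measure_mono hsub).trans ?_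
  rw [Measure.addHaar_image_linearMap, LinearMap.det_toLin']
  exact mul_le_mul_left (ENNReal.ofReal_le_ofReal hdet) _

theorem volume_ball_le (k : ℕ) {b : ℝ} (hb : 0 < b) :
    volume {z : Fin k → ℝ | ∑ i, z i ^ 2 ≤ 2} ≤
      ENNReal.ofReal (Real.exp (2 * b)) * ENNReal.ofReal (√(Real.pi / b)) ^ k := by
  have hm : MeasurableSet {z : Fin k → ℝ | ∑ i, z i ^ 2 ≤ 2} :=
    measurableSet_le (by fun_prop) measurable_const
  have h1 : ∫⁻ x : ℝ, ENNReal.ofReal (Real.exp (-b * x ^ 2)) = ENNReal.ofReal (√(Real.pi / b)) := by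
    rw [← ofReal_integral_eq_lintegral_ofReal (integrable_exp_neg_mul_sq hb)
      (ae_of_all _ fun x => (Real.exp_pos _).le), integral_gaussian]
  rw [← h1, ← lintegral_pi_prod volume (by fun_prop), ← lintegral_const_mul _ (by fun_prop),
    ← lintegral_indicator_one hm]
  refine lintegral_mono fun z => ?_
  by_cases hz : z ∈ {z : Fin k → ℝ | ∑ i, z i ^ 2 ≤ 2}
  · rw [indicator_of_mem hz, ← ENNReal.ofReal_prod_of_nonneg fun i _ => (Real.exp_pos _).le,
      ← ENNReal.ofReal_mul (Real.exp_pos _).le, ← Real.exp_sum, ← Real.exp_add, ← Finset.mul_sum,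
      Pi.one_apply, ENNReal.one_le_ofReal, Real.one_le_exp_iff]
    have : ∑ i, z i ^ 2 ≤ 2 := hz
    nlinarith
  · rw [indicator_of_notMem hz]
    exact zero_le

variable {d : ℕ}

/-- rows together with a vector close to the labels of a signal in the unit ball -/
def Ell (d k : ℕ) : Set ((Fin k → E d) × (Fin k → ℝ)) :=
  {p | ∃ s : E d, ‖s‖ ≤ 1 ∧ ∑ j, (p.2 j - ⟪p.1 j, s⟫) ^ 2 ≤ 1}

theorem measurableSet_Ell (d k : ℕ) : MeasurableSet (Ell d k) := by
  have h : IsClosed {q : closedBall (0 : E d) 1 × ((Fin k → E d) × (Fin k → ℝ)) |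
      ∑ j, (q.2.2 j - ⟪q.2.1 j, (q.1 : E d)⟫) ^ 2 ≤ 1} :=
    isClosed_le (by fun_prop) continuous_const
  have h2 := isClosedMap_snd_of_compactSpace _ h
  refine (show Ell d k = _ from ?_) ▸ h2.measurableSet
  ext p
  constructor
  · rintro ⟨s, hs, h⟩
    exact ⟨(⟨s, mem_closedBall_zero_iff.2 hs⟩, p), h, rfl⟩
  · rintro ⟨q, h, rfl⟩
    exact ⟨q.1, mem_closedBall_zero_iff.1 q.1.2, h⟩

theorem volume_Ell_le {k : ℕ} (X : Fin k → E d) :
    volume (Prod.mk X ⁻¹' Ell d k) ≤ (∏ j, ENNReal.ofReal (√(‖X j‖ ^ 2 + 1))) *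
      volume {z : Fin k → ℝ | ∑ i, z i ^ 2 ≤ 2} := by
  let a : Fin k → WithLp 2 (E d × E k) := fun j =>
    WithLp.toLp 2 (X j, EuclideanSpace.single j (1 : ℝ))
  have ha : LinearIndependent ℝ a := by
    refine LinearIndependent.of_comp
      ((LinearMap.snd ℝ (E d) (E k)) ∘ₗ (WithLp.linearEquiv 2 ℝ (E d × E k)).toLinearMap) ?_
    exact (EuclideanSpace.orthonormal_single (𝕜 := ℝ) (ι := Fin k)).linearIndependent
  have hn : ∀ j, ‖a j‖ = √(‖X j‖ ^ 2 + 1) := fun j => by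
    rw [WithLp.prod_norm_eq_of_L2]
    simp [a]
  have h := volume_image_le a ha 2
  simp_rw [hn] at h
  rw [ENNReal.ofReal_prod_of_nonneg fun j _ => Real.sqrt_nonneg _] at h
  refine le_trans (measure_mono ?_) h
  rintro y ⟨s, hs, hy⟩
  refine ⟨WithLp.toLp 2 (s, WithLp.toLp 2 fun j => y j - ⟪X j, s⟫), ?_, fun j => ?_⟩
  · rw [WithLp.prod_norm_sq_eq_of_L2]
    have h1 : ‖s‖ ^ 2 ≤ 1 := pow_le_one₀ (norm_nonneg _) hs
    have h2 : ‖(WithLp.toLp 2 fun j => y j - ⟪X j, s⟫ : E k)‖ ^ 2 ≤ 1 := by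
      rw [EuclideanSpace.real_norm_sq_eq]
      exact hy
    exact (add_le_add h1 h2).trans (by norm_num)
  · simp [a, WithLp.prod_inner_apply, EuclideanSpace.inner_single_left]

theorem lintegral_sqrt_le (hd : 1 ≤ d) :
    ∫⁻ x, ENNReal.ofReal (√(‖x‖ ^ 2 + 1)) ∂(gam d) ≤ ENNReal.ofReal (3 / 2 * √d) := by
  have hd' : (1 : ℝ) ≤ d := by exact_mod_cast hd
  have hs : 0 < √(d : ℝ) := Real.sqrt_pos.2 (by linarith)
  have hss : √(d : ℝ) * √d = d := Real.mul_self_sqrt (by linarith)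
  have h1 : ∀ x : E d, ENNReal.ofReal (√(‖x‖ ^ 2 + 1)) ≤
      ENNReal.ofReal (1 / (2 * √d)) * ENNReal.ofReal (‖x‖ ^ 2) + ENNReal.ofReal (√d) := by
    intro x
    rw [← ENNReal.ofReal_mul (by positivity), ← ENNReal.ofReal_add (by positivity) hs.le]
    refine ENNReal.ofReal_le_ofReal ?_
    set t := √(‖x‖ ^ 2 + 1)
    have ht : t * t = ‖x‖ ^ 2 + 1 := Real.mul_self_sqrt (by positivity)
    rw [div_mul_eq_mul_div, div_add' _ _ _ (by positivity), le_div_iff₀ (by positivity)]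
    nlinarith [sq_nonneg (t - √d)]
  refine (lintegral_mono h1).trans (le_of_eq ?_)
  rw [lintegral_add_right _ measurable_const, lintegral_const_mul _ (by fun_prop),
    lintegral_norm_sq_gam, lintegral_const, measure_univ, mul_one, ← ENNReal.ofReal_natCast,
    ← ENNReal.ofReal_mul (by positivity), ← ENNReal.ofReal_add (by positivity) hs.le]
  congr 1
  field_simp
  nlinarith

theorem measure_Ell_le {k : ℕ} (hd : 1 ≤ d) (hk : k ≤ d) :
    ((Measure.pi fun _ : Fin k => gam d).prod volume) (Ell d k) ≤ 32 ^ d := by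
  have hd' : (1 : ℝ) ≤ d := by exact_mod_cast hd
  rw [Measure.prod_apply (measurableSet_Ell d k)]
  refine (lintegral_mono volume_Ell_le).trans ?_
  rw [lintegral_mul_const _ (by fun_prop),
    lintegral_pi_prod (gam d) (f := fun x => ENNReal.ofReal (√(‖x‖ ^ 2 + 1))) (by fun_prop)]
  refine (mul_le_mul' (pow_le_pow_left' (lintegral_sqrt_le hd) k)
    (volume_ball_le k (b := d) (by linarith))).trans ?_
  rw [mul_left_comm, ← mul_pow, ← ENNReal.ofReal_mul (by positivity),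
    ← ENNReal.ofReal_pow (by positivity), ← ENNReal.ofReal_mul (by positivity)]
  have h1 : 3 / 2 * √(d : ℝ) * √(Real.pi / d) ≤ 4 := by
    rw [mul_assoc, ← Real.sqrt_mul (by linarith), mul_div_cancel₀ _ (by linarith)]
    have : √Real.pi ≤ 2 := Real.sqrt_le_iff.2 ⟨by norm_num, by linarith [Real.pi_lt_four]⟩
    linarith
  have h2 : Real.exp (2 * d) ≤ 8 ^ d := by
    rw [mul_comm, Real.exp_nat_mul]
    refine pow_le_pow_left₀ (Real.exp_pos _).le ?_ d
    have h3 := Real.exp_one_lt_d9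
    rw [show (2 : ℝ) = 1 + 1 by norm_num, Real.exp_add]
    nlinarith [Real.exp_pos 1]
  have h3 : (3 / 2 * √(d : ℝ) * √(Real.pi / d)) ^ k ≤ 4 ^ d :=
    (pow_le_pow_left₀ (by positivity) h1 k).trans (pow_le_pow_right₀ (by norm_num) hk)
  calc _ ≤ ENNReal.ofReal (8 ^ d * 4 ^ d) :=
        ENNReal.ofReal_le_ofReal (mul_le_mul h2 h3 (by positivity) (by positivity))
    _ = 32 ^ d := by
        rw [← mul_pow, ENNReal.ofReal_pow (by norm_num)]
        norm_num

end Vale.Agent.P309b
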