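import Vale.Agent.P309b.Gauss

/-! Frostman measures, tubes around subspaces and moments of fibre masses. -/

namespace Vale.Agent.P309b

open MeasureTheory ProbabilityTheory Set Metric
open scoped RealInnerProductSpace ENNReal

variable {d : ℕ}

/-- Frostman condition with exponent `β` and constant `F` -/
def Fr (ν : Measure (E d)) (β : ℕ) (F : ℝ≥0∞) : Prop :=
  ∀ x r, 0 < r → ν (closedBall x r) ≤ F * ENNReal.ofReal (r ^ β)

theorem measurableSet_tube (V : Submodule ℝ (E d)) (s1 : E d) (r ρ : ℝ) :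
    MeasurableSet {s : E d | ‖s - s1‖ ≤ ρ ∧ ‖Vᗮ.starProjection (s - s1)‖ ≤ r} :=
  ((isClosed_le (f := fun s : E d => ‖s - s1‖) (by fun_prop) continuous_const).inter
    (isClosed_le (f := fun s : E d => ‖Vᗮ.starProjection (s - s1)‖) (by fun_prop)
      continuous_const)).measurableSet

/-- mass of a tube around an affine subspace -/
theorem tube_le {ν : Measure (E d)} [SFinite ν] {β : ℕ} {F : ℝ≥0∞} (h : Fr ν β F)
    (V : Submodule ℝ (E d)) (s1 : E d) {r ρ : ℝ} (hr : 0 < r) (hρ : 0 ≤ ρ) :
    ν {s | ‖s - s1‖ ≤ ρ ∧ ‖Vᗮ.starProjection (s - s1)‖ ≤ r} ≤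
      F * ENNReal.ofReal ((2 * r) ^ β * ((ρ + r) / r) ^ Module.finrank ℝ V) := by
  let μ : Measure V := Measure.addHaar
  set T := {s : E d | ‖s - s1‖ ≤ ρ ∧ ‖Vᗮ.starProjection (s - s1)‖ ≤ r} with hT
  let A : Set (E d × V) := {p | ‖p.2‖ ≤ ρ + r ∧ ‖p.1 - (s1 + p.2)‖ ≤ 2 * r}
  have hA : MeasurableSet A :=
    ((isClosed_le (f := fun p : E d × V => ‖p.2‖) (by fun_prop) continuous_const).inter
      (isClosed_le (f := fun p : E d × V => ‖p.1 - (s1 + p.2)‖) (by fun_prop)
        continuous_const)).measurableSet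
  have hTm : MeasurableSet T := measurableSet_tube V s1 r ρ
  have h1 : ν T * μ (closedBall 0 r) ≤ (ν.prod μ) A := by
    rw [Measure.prod_apply hA, mul_comm, ← setLIntegral_const, ← lintegral_indicator hTm]
    refine lintegral_mono fun s => ?_
    by_cases hs : s ∈ T
    · rw [indicator_of_mem hs,
        ← Measure.addHaar_closedBall_center μ (V.orthogonalProjectionOnto (s - s1))]
      refine measure_mono fun v hv => ?_
      rw [mem_closedBall, dist_eq_norm] at hv
      refine ⟨?_, ?_⟩
      · have h2 : ‖V.orthogonalProjectionOnto (s - s1)‖ ≤ ρ :=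
          (V.norm_orthogonalProjectionOnto_apply_le _).trans hs.1
        calc ‖v‖ ≤ ‖V.orthogonalProjectionOnto (s - s1)‖ + ‖v - V.orthogonalProjectionOnto (s - s1)‖ :=
              norm_le_norm_add_norm_sub' _ _
          _ ≤ ρ + r := add_le_add h2 hv
      · have h3 : s - (s1 + v) = Vᗮ.starProjection (s - s1) -
            ((v - V.orthogonalProjectionOnto (s - s1) : V) : E d) := by
          rw [Submodule.starProjection_orthogonal_val, Submodule.coe_sub,
            Submodule.coe_orthogonalProjectionOnto_apply]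
          abel
        change ‖s - (s1 + v)‖ ≤ 2 * r
        rw [h3]
        calc _ ≤ ‖Vᗮ.starProjection (s - s1)‖ + ‖v - V.orthogonalProjectionOnto (s - s1)‖ :=
              norm_sub_le _ _
          _ ≤ r + r := add_le_add hs.2 hv
          _ = 2 * r := by ring
    · rw [indicator_of_notMem hs]
      exact zero_le
  have h2 : (ν.prod μ) A ≤ F * ENNReal.ofReal ((2 * r) ^ β) * μ (closedBall 0 (ρ + r)) := by
    rw [Measure.prod_apply_symm hA, ← setLIntegral_const,
      ← lintegral_indicator measurableSet_closedBall]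
    refine lintegral_mono fun v => ?_
    by_cases hv : v ∈ closedBall (0 : V) (ρ + r)
    · rw [indicator_of_mem hv]
      refine le_trans (measure_mono fun s hs => ?_) (h (s1 + v) (2 * r) (by positivity))
      rw [mem_closedBall, dist_eq_norm]
      exact hs.2
    · rw [indicator_of_notMem hv, nonpos_iff_eq_zero]
      refine measure_mono_null (fun s hs => hv ?_) measure_empty
      rw [mem_closedBall, dist_zero_right]
      exact hs.1
  have h3 := h1.trans h2
  have hb0 : μ (ball 0 1) ≠ 0 := (measure_ball_pos μ 0 one_pos).ne'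
  have hb1 : μ (ball 0 1) ≠ ∞ := measure_ball_lt_top.ne
  have hr0 : ENNReal.ofReal (r ^ Module.finrank ℝ V) ≠ 0 := by
    rw [Ne, ENNReal.ofReal_eq_zero, not_le]; positivity
  rw [Measure.addHaar_closedBall μ _ hr.le, Measure.addHaar_closedBall μ _ (by positivity),
    ← mul_assoc, ← mul_assoc, ENNReal.mul_le_mul_iff_left hb0 hb1] at h3
  rw [← ENNReal.mul_le_mul_iff_left hr0 ENNReal.ofReal_ne_top]
  refine h3.trans (le_of_eq ?_)
  rw [mul_assoc, mul_assoc, ← ENNReal.ofReal_mul (by positivity),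
    ← ENNReal.ofReal_mul (by positivity)]
  congr 2
  rw [div_pow]
  field_simp

theorem exists_scale {V : Submodule ℝ (E d)} {S : Set (E d)} (hS : MeasurableSet S)
    (hI : Inv V S) {v : E d} (hv : ‖v‖ ≤ 2) {η : ℝ} (hη : 0 < η) :
    ∃ j : ℕ, ‖Vᗮ.starProjection v‖ ≤ 2 / 2 ^ j ∧
      gam d (S ∩ slab v η) ≤ gam d S * ENNReal.ofReal (2 ^ j * η) := by
  rcases (norm_nonneg (Vᗮ.starProjection v)).eq_or_lt with h0 | h0
  · obtain ⟨j, hj⟩ := pow_unbounded_of_one_lt η⁻¹ (one_lt_two (α := ℝ))
    refine ⟨j, by rw [← h0]; positivity, ?_⟩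
    refine (measure_mono inter_subset_left).trans (le_mul_of_one_le_right zero_le ?_)
    rw [ENNReal.one_le_ofReal, ← inv_mul_cancel₀ hη.ne']
    exact mul_le_mul_of_nonneg_right hj.le hη.le
  · set D := ‖Vᗮ.starProjection v‖
    have hD2 : D ≤ 2 := (Submodule.norm_starProjection_apply_le _ _).trans hv
    obtain ⟨j, hj1, hj2⟩ := exists_nat_pow_near (x := 2 / D) (y := 2)
      (by rw [le_div_iff₀ h0]; linarith) one_lt_two
    refine ⟨j, ?_, (gam_inter_slab hS hI v η h0).trans ?_⟩
    · rw [le_div_iff₀ h0] at hj1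
      rw [le_div_iff₀ (by positivity)]
      linarith
    · refine mul_le_mul_right (ENNReal.ofReal_le_ofReal ?_) _
      rw [div_lt_iff₀ h0, pow_succ] at hj2
      rw [div_le_iff₀ h0]
      nlinarith

/-- the energy estimate -/
theorem energy_le {ν : Measure (E d)} [SFinite ν] {β k m : ℕ} {F : ℝ≥0∞} (h : Fr ν β F)
    (hν : ν (closedBall 0 1)ᶜ = 0) (hβ : k + m + 1 ≤ β) {s1 : E d} (hs1 : ‖s1‖ ≤ 1)
    {η : ℝ} (hη : 0 < η) {V : Submodule ℝ (E d)} (hV : Module.finrank ℝ V ≤ m)
    {S : Set (E d)} (hS : MeasurableSet S) (hI : Inv V S) :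
    ∫⁻ s, gam d (S ∩ slab (s - s1) η) ^ k ∂ν ≤
      gam d S ^ k * (F * ENNReal.ofReal (η ^ k * (2 ^ (m + 1) * 4 ^ β))) := by
  let T : ℕ → Set (E d) := fun j =>
    {s | ‖s - s1‖ ≤ 2 ∧ ‖Vᗮ.starProjection (s - s1)‖ ≤ 2 / 2 ^ j}
  have hT : ∀ j, MeasurableSet (T j) := fun j => measurableSet_tube V s1 _ _
  have h1 : ∀ᵐ s ∂ν, gam d (S ∩ slab (s - s1) η) ^ k ≤
      ∑' j, (T j).indicator (fun _ => gam d S ^ k * ENNReal.ofReal ((2 ^ j * η) ^ k)) s := by
    filter_upwards [show ∀ᵐ s ∂ν, s ∈ closedBall (0 : E d) 1 from hν] with s hs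
    rw [mem_closedBall, dist_zero_right] at hs
    have hv : ‖s - s1‖ ≤ 2 := (norm_sub_le _ _).trans (by linarith)
    obtain ⟨j, hj1, hj2⟩ := exists_scale hS hI hv hη
    refine le_trans ?_ (ENNReal.le_tsum j)
    rw [indicator_of_mem (show s ∈ T j from ⟨hv, hj1⟩), ENNReal.ofReal_pow (by positivity),
      ← mul_pow]
    exact pow_le_pow_left' hj2 k
  refine (lintegral_mono_ae h1).trans ?_
  rw [lintegral_tsum fun j => (measurable_const.indicator (hT j)).aemeasurable]
  have h2 : ∀ j, ∫⁻ s, (T j).indicator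
      (fun _ => gam d S ^ k * ENNReal.ofReal ((2 ^ j * η) ^ k)) s ∂ν ≤
      gam d S ^ k * (F * ENNReal.ofReal (η ^ k * (2 ^ m * 4 ^ β))) * 2⁻¹ ^ j := by
    intro j
    rw [lintegral_indicator_const (hT j), mul_assoc, mul_assoc]
    refine mul_le_mul_right ?_ _
    refine (mul_le_mul_right (tube_le h V s1 (by positivity) (by norm_num)) _).trans ?_
    have e : (2⁻¹ : ℝ≥0∞) ^ j = ENNReal.ofReal (1 / 2 ^ j) := by
      rw [one_div, ← inv_pow, ENNReal.ofReal_pow (by norm_num),
        ENNReal.ofReal_inv_of_pos (by norm_num)]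
      simp
    rw [mul_left_comm, mul_assoc, e, ← ENNReal.ofReal_mul (by positivity),
      ← ENNReal.ofReal_mul (by positivity)]
    refine mul_le_mul_right (ENNReal.ofReal_le_ofReal ?_) _
    set t : ℝ := 2 ^ j with ht
    have ht1 : 1 ≤ t := one_le_pow₀ (by norm_num)
    have e1 : ((2 + 2 / t) / (2 / t)) = t + 1 := by field_simp
    have e2 : (t + 1) ^ Module.finrank ℝ V ≤ (2 * t) ^ m :=
      (pow_le_pow_left₀ (by positivity) (by linarith) _).trans
        (pow_le_pow_right₀ (by linarith) hV)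
    have e3 : t ^ (k + m + 1) ≤ t ^ β := pow_le_pow_right₀ ht1 hβ
    rw [e1]
    calc (t * η) ^ k * ((2 * (2 / t)) ^ β * (t + 1) ^ Module.finrank ℝ V)
        ≤ (t * η) ^ k * ((2 * (2 / t)) ^ β * (2 * t) ^ m) := by gcongr
      _ = η ^ k * (2 ^ m * 4 ^ β) * (t ^ (k + m + 1) / t ^ β / t) := by
          rw [show 2 * (2 / t) = 4 / t by ring, div_pow, mul_pow, mul_pow]
          field_simp
          ring
      _ ≤ η ^ k * (2 ^ m * 4 ^ β) * (1 / t) := by
          gcongr
          exact (div_le_one (by positivity)).2 e3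
  refine (ENNReal.tsum_le_tsum h2).trans (le_of_eq ?_)
  rw [ENNReal.tsum_mul_left, ENNReal.tsum_geometric, ENNReal.one_sub_inv_two, inv_inv, mul_assoc,
    mul_assoc, show η ^ k * (2 ^ (m + 1) * 4 ^ β) = η ^ k * (2 ^ m * 4 ^ β) * 2 by ring,
    ENNReal.ofReal_mul (p := η ^ k * (2 ^ m * 4 ^ β)) (by positivity), ENNReal.ofReal_ofNat]

/-- the set of signals whose labels are close to those of `s1` -/
def near {k : ℕ} (X : Fin k → E d) (s1 : E d) (η : ℝ) : Set (E d) :=
  {s | ∀ j, |⟪X j, s - s1⟫| ≤ η}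

theorem measurableSet_near {α : Type*} [MeasurableSpace α] {k : ℕ} (η : ℝ) {X : α → Fin k → E d}
    {s1 s : α → E d} (hX : Measurable X) (h1 : Measurable s1) (h2 : Measurable s) :
    MeasurableSet {p | s p ∈ near (X p) (s1 p) η} := by
  have : {p | s p ∈ near (X p) (s1 p) η} = ⋂ j, {p | |⟪X p j, s p - s1 p⟫| ≤ η} := by
    ext p
    simp [near]
  rw [this]
  exact MeasurableSet.iInter fun j => measurableSet_le (by fun_prop) measurable_const

theorem measurable_near {α : Type*} [MeasurableSpace α] (ν : Measure (E d)) [SFinite ν] {k : ℕ}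
    (η : ℝ) {X : α → Fin k → E d} {s1 : α → E d} (hX : Measurable X) (h1 : Measurable s1) :
    Measurable fun p => ν (near (X p) (s1 p) η) :=
  measurable_measure_prodMk_left (s := {q : α × E d | q.2 ∈ near (X q.1) (s1 q.1) η})
    (measurableSet_near η (hX.comp measurable_fst) (h1.comp measurable_fst) measurable_snd)

/-- moments of the mass of a fibre -/
theorem moment_le {ν : Measure (E d)} [SFinite ν] {k m : ℕ} {B : ℝ≥0∞} {s1 : E d} {η : ℝ}
    (h : ∀ V : Submodule ℝ (E d), Module.finrank ℝ V ≤ m → ∀ S, MeasurableSet S → Inv V S →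
      ∫⁻ s, gam d (S ∩ slab (s - s1) η) ^ k ∂ν ≤ gam d S ^ k * B) (n : ℕ) :
    ∀ V : Submodule ℝ (E d), Module.finrank ℝ V + n ≤ m → ∀ S, MeasurableSet S → Inv V S →
      ∫⁻ X in univ.pi fun _ : Fin k => S, ν (near X s1 η) ^ n ∂(Measure.pi fun _ => gam d) ≤
        gam d S ^ k * B ^ n := by
  have hN : Measurable fun X : Fin k → E d => ν (near X s1 η) :=
    measurable_near ν η measurable_id measurable_const
  induction n with
  | zero =>
    intro V _ S _ _
    simp
  | succ n ih =>
    intro V hV S hS hI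
    have hpi : MeasurableSet (univ.pi fun _ : Fin k => S) := MeasurableSet.univ_pi fun _ => hS
    have hA : MeasurableSet {p : (Fin k → E d) × E d | p.2 ∈ near p.1 s1 η} :=
      measurableSet_near η measurable_fst measurable_const measurable_snd
    let G : (Fin k → E d) → E d → ℝ≥0∞ := fun X s =>
      {p : (Fin k → E d) × E d | p.2 ∈ near p.1 s1 η}.indicator
        (fun p => ν (near p.1 s1 η) ^ n) (X, s)
    have hG : Measurable (Function.uncurry G) :=
      ((hN.comp measurable_fst).pow_const n).indicator hA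
    have e1 : ∀ X, ν (near X s1 η) ^ (n + 1) = ∫⁻ s, G X s ∂ν := by
      intro X
      have : ∀ s, G X s = (near X s1 η).indicator (fun _ => ν (near X s1 η) ^ n) s := fun s => by
        simp only [G, indicator, mem_ofPred_eq]
      simp_rw [this]
      rw [lintegral_indicator_const (s := near X s1 η)
        (measurableSet_near η measurable_const measurable_const measurable_id), pow_succ]
    simp_rw [e1]
    rw [lintegral_lintegral_swap hG.aemeasurable]
    have e2 : ∀ s, ∫⁻ X in univ.pi fun _ : Fin k => S, G X s ∂(Measure.pi fun _ => gam d) ≤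
        gam d (S ∩ slab (s - s1) η) ^ k * B ^ n := by
      intro s
      have hS' := hS.inter (measurableSet_slab (s - s1) η)
      refine le_trans (le_of_eq ?_) (ih (V ⊔ ℝ ∙ (s - s1)) ?_ _ hS' ?_)
      · rw [← lintegral_indicator hpi, ← lintegral_indicator (MeasurableSet.univ_pi fun _ => hS')]
        refine lintegral_congr fun X => ?_
        by_cases h1 : X ∈ univ.pi fun _ : Fin k => S ∩ slab (s - s1) η
        · have h2 : X ∈ univ.pi fun _ : Fin k => S := fun j hj => (h1 j hj).1
          have h3 : (X, s) ∈ {p : (Fin k → E d) × E d | p.2 ∈ near p.1 s1 η} :=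
            fun j => (h1 j trivial).2
          rw [indicator_of_mem h1, indicator_of_mem h2]
          exact indicator_of_mem h3 _
        · rw [indicator_of_notMem h1]
          by_cases h2 : X ∈ univ.pi fun _ : Fin k => S
          · have h3 : (X, s) ∉ {p : (Fin k → E d) × E d | p.2 ∈ near p.1 s1 η} :=
              fun h3 => h1 fun j hj => ⟨h2 j hj, h3 j⟩
            rw [indicator_of_mem h2]
            exact indicator_of_notMem h3 _
          · exact indicator_of_notMem h2 _
      · have h1 := Submodule.finrank_add_le_finrank_add_finrank V (ℝ ∙ (s - s1))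
        have h2 : Module.finrank ℝ (ℝ ∙ (s - s1)) ≤ 1 := by
          simpa using finrank_span_le_card (R := ℝ) ({s - s1} : Set (E d))
        omega
      · intro x hx u hu
        refine ⟨hI x hx.1 u (Submodule.orthogonal_le le_sup_left hu), ?_⟩
        have h1 : ⟪u, s - s1⟫ = 0 := Submodule.inner_left_of_mem_orthogonal
          (Submodule.mem_sup_right (Submodule.mem_span_singleton_self _)) hu
        change |⟪x + u, s - s1⟫| ≤ η
        rw [inner_add_left, h1, add_zero]
        exact hx.2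
    refine (lintegral_mono e2).trans ?_
    rcases eq_or_ne (B ^ n) ∞ with hB | hB
    · rcases eq_or_ne (gam d S ^ k) 0 with h0 | h0
      · have : ∀ s, gam d (S ∩ slab (s - s1) η) ^ k = 0 := fun s =>
          le_antisymm (h0 ▸ pow_le_pow_left' (measure_mono inter_subset_left) k) zero_le
        simp [this]
      · have hB' : B ≠ 0 := by
          rintro rfl
          rcases n with _ | n <;> simp at hB
        rw [pow_succ, hB, ENNReal.top_mul hB', ENNReal.mul_top h0]
        exact le_top
    · rw [lintegral_mul_const' _ _ hB, pow_succ', ← mul_assoc]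
      exact mul_le_mul_left (h V (by omega) S hS hI) _

theorem moment_bound {ν : Measure (E d)} [SFinite ν] {β k m : ℕ} {F : ℝ≥0∞} (h : Fr ν β F)
    (hν : ν (closedBall 0 1)ᶜ = 0) (hβ : k + m + 1 ≤ β) {η : ℝ} (hη : 0 < η) :
    ∫⁻ X : Fin k → E d, ∫⁻ s1, ν (near X s1 η) ^ m ∂ν ∂(Measure.pi fun _ => gam d) ≤
      F * (F * ENNReal.ofReal (η ^ k * (2 ^ (m + 1) * 4 ^ β))) ^ m := by
  rw [lintegral_lintegral_swap 
    ((measurable_near ν η measurable_fst measurable_snd).pow_const m).aemeasurable]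
  have h1 : ∀ᵐ s1 ∂ν, ∫⁻ X : Fin k → E d, ν (near X s1 η) ^ m ∂(Measure.pi fun _ => gam d) ≤
      (F * ENNReal.ofReal (η ^ k * (2 ^ (m + 1) * 4 ^ β))) ^ m := by
    filter_upwards [show ∀ᵐ s ∂ν, s ∈ closedBall (0 : E d) 1 from hν] with s1 hs
    rw [mem_closedBall, dist_zero_right] at hs
    have := moment_le (fun V hV S hS hI => energy_le h hν hβ hs hη hV hS hI) m ⊥ (by simp) univ
      MeasurableSet.univ fun _ _ _ _ => mem_univ _
    simpa using this
  refine (lintegral_mono_ae h1).trans ?_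
  rw [lintegral_const, mul_comm]
  refine mul_le_mul_left ?_ _
  have h2 := h 0 1 one_pos
  rw [one_pow, ENNReal.ofReal_one, mul_one] at h2
  rw [← union_compl_self (closedBall (0 : E d) 1)]
  exact (measure_union_le _ _).trans (by rw [hν, add_zero]; exact h2)

end Vale.Agent.P309b
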