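import Vale.Agent.P309b.Defs

/-! Facts about product measures and the standard Gaussian measure. -/

namespace Vale.Agent.P309b

open MeasureTheory ProbabilityTheory Set
open scoped RealInnerProductSpace ENNReal

section pi
variable {α : Type*} [MeasurableSpace α] (μ : Measure α) [SigmaFinite μ]

theorem measurable_cons {n : ℕ} :
    Measurable fun p : α × (Fin n → α) => (Fin.cons p.1 p.2 : Fin (n + 1) → α) := by
  refine measurable_pi_lambda _ fun i => ?_
  refine Fin.cases ?_ (fun j => ?_) i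
  · simpa using measurable_fst
  · simp only [Fin.cons_succ]
    fun_prop

theorem lintegral_cons {n : ℕ} {F : (Fin (n + 1) → α) → ℝ≥0∞} (hF : Measurable F) :
    ∫⁻ xs, F xs ∂(Measure.pi fun _ => μ) =
      ∫⁻ x, ∫⁻ xs, F (Fin.cons x xs) ∂(Measure.pi fun _ => μ) ∂μ := by
  have h := lintegral_prod (μ := μ) (ν := Measure.pi fun _ : Fin n => μ)
    (fun p => F (Fin.cons p.1 p.2)) (hF.comp measurable_cons).aemeasurable
  rw [← ((measurePreserving_piFinSuccAbove (fun _ : Fin (n + 1) => μ) 0).symm).lintegral_comp hF,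
    ← h]
  refine lintegral_congr fun p => ?_
  simp [MeasurableEquiv.piFinSuccAbove_symm_apply, Fin.insertNthEquiv]

theorem lintegral_pi_prod {f : α → ℝ≥0∞} (hf : Measurable f) (n : ℕ) :
    ∫⁻ xs : Fin n → α, ∏ j, f (xs j) ∂(Measure.pi fun _ => μ) = (∫⁻ x, f x ∂μ) ^ n := by
  induction n with
  | zero => simp
  | succ n ih =>
    have hm : ∀ n, Measurable fun xs : Fin n → α => ∏ j, f (xs j) := fun n =>
      Finset.measurable_prod _ fun j _ => hf.comp (measurable_pi_apply j)
    rw [lintegral_cons μ (hm _)]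
    simp only [Fin.prod_univ_succ, Fin.cons_zero, Fin.cons_succ]
    simp_rw [lintegral_const_mul _ (hm n), ih]
    rw [lintegral_mul_const _ hf, pow_succ']

end pi

variable {d : ℕ}

/-- the standard Gaussian measure on `E d` -/
noncomputable abbrev gam (d : ℕ) : Measure (E d) := stdGaussian (E d)

theorem gam_resample {e : E d} (he : ‖e‖ = 1) :
    ((gam d).prod (gaussianReal 0 1)).map (fun p : E d × ℝ => p.1 + (p.2 - ⟪e, p.1⟫) • e) =
      gam d := by
  have hm : Measurable fun p : E d × ℝ => p.1 + (p.2 - ⟪e, p.1⟫) • e := by fun_prop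
  have := Measure.isProbabilityMeasure_map
    (μ := (gam d).prod (gaussianReal 0 1)) hm.aemeasurable
  apply Measure.ext_of_charFun
  ext t
  rw [charFun_apply, integral_map hm.aemeasurable (Measurable.aestronglyMeasurable (by fun_prop))]
  have h1 : ∀ p : E d × ℝ, Complex.exp ((⟪p.1 + (p.2 - ⟪e, p.1⟫) • e, t⟫ : ℝ) * Complex.I) =
      Complex.exp ((⟪p.1, t - ⟪e, t⟫ • e⟫ : ℝ) * Complex.I) *
        Complex.exp ((⟪e, t⟫ : ℝ) * (p.2 : ℝ) * Complex.I) := by
    intro p
    rw [← Complex.exp_add, inner_add_left, inner_sub_right, real_inner_smul_left,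
      real_inner_smul_right, real_inner_comm p.1 e]
    congr 1
    push_cast
    ring
  simp_rw [h1]
  rw [integral_prod_mul (f := fun x : E d => Complex.exp ((⟪x, t - ⟪e, t⟫ • e⟫ : ℝ) * Complex.I))
    (g := fun g : ℝ => Complex.exp ((⟪e, t⟫ : ℝ) * (g : ℝ) * Complex.I)),
    ← charFun_apply, ← charFun_apply_real, charFun_stdGaussian, charFun_stdGaussian,
    charFun_gaussianReal, ← Complex.exp_add]
  have h2 : ‖t - ⟪e, t⟫ • e‖ ^ 2 = ‖t‖ ^ 2 - ⟪e, t⟫ ^ 2 := by
    rw [norm_sub_sq_real, real_inner_smul_right, norm_smul, he, real_inner_comm e t, mul_one,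
      Real.norm_eq_abs, sq_abs]
    ring
  congr 1
  rw [← Complex.ofReal_pow, h2]
  push_cast
  simp
  ring

theorem gaussianReal_le (s : Set ℝ) : gaussianReal 0 1 s ≤ 2⁻¹ * volume s := by
  rw [gaussianReal_apply 0 one_ne_zero, ← setLIntegral_const]
  refine lintegral_mono fun x => ?_
  have h1 : gaussianPDFReal 0 1 x ≤ 2⁻¹ := by
    rw [gaussianPDFReal]
    have h2 : (2 : ℝ) ≤ √(2 * Real.pi * (1 : NNReal)) := by
      apply Real.le_sqrt_of_sq_le
      have := Real.pi_gt_three
      simp only [NNReal.coe_one]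
      linarith
    have h3 : Real.exp (-(x - 0) ^ 2 / (2 * (1 : NNReal))) ≤ 1 := by
      rw [Real.exp_le_one_iff]
      have := sq_nonneg (x - 0)
      simp only [NNReal.coe_one]
      linarith
    calc _ ≤ (2 : ℝ)⁻¹ * 1 :=
          mul_le_mul (inv_anti₀ (by norm_num) h2) h3 (Real.exp_pos _).le (by norm_num)
      _ = _ := mul_one _
  calc gaussianPDF 0 1 x ≤ ENNReal.ofReal 2⁻¹ := ENNReal.ofReal_le_ofReal h1
    _ = 2⁻¹ := by rw [ENNReal.ofReal_inv_of_pos (by norm_num)]; simp

theorem gaussianReal_slab (a : ℝ) {D η : ℝ} (hD : 0 < D) :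
    gaussianReal 0 1 {g | |a + g * D| ≤ η} ≤ ENNReal.ofReal (η / D) := by
  have h : {g : ℝ | |a + g * D| ≤ η} ⊆ Icc ((-η - a) / D) ((η - a) / D) := by
    intro g hg
    have := abs_le.1 (show |a + g * D| ≤ η from hg)
    exact ⟨by rw [div_le_iff₀ hD]; linarith, by rw [le_div_iff₀ hD]; linarith⟩
  refine (measure_mono h).trans ((gaussianReal_le _).trans ?_)
  rw [Real.volume_Icc, show (η - a) / D - (-η - a) / D = 2 * (η / D) by ring,
    ENNReal.ofReal_mul (by norm_num), ← mul_assoc, ENNReal.ofReal_ofNat,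
    ENNReal.inv_mul_cancel (by norm_num) (by norm_num), one_mul]

/-- the slab of rows that are nearly orthogonal to `v` -/
def slab (v : E d) (η : ℝ) : Set (E d) := {x | |⟪x, v⟫| ≤ η}

theorem measurableSet_slab (v : E d) (η : ℝ) : MeasurableSet (slab v η) :=
  measurableSet_le (by fun_prop) measurable_const

/-- invariance under translations orthogonal to `V` -/
def Inv (V : Submodule ℝ (E d)) (S : Set (E d)) : Prop := ∀ x ∈ S, ∀ u ∈ Vᗮ, x + u ∈ S

theorem gam_inter_slab {V : Submodule ℝ (E d)} {S : Set (E d)} (hS : MeasurableSet S)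
    (hI : Inv V S) (v : E d) (η : ℝ) (hD : 0 < ‖Vᗮ.starProjection v‖) :
    gam d (S ∩ slab v η) ≤ gam d S * ENNReal.ofReal (η / ‖Vᗮ.starProjection v‖) := by
  set u := Vᗮ.starProjection v with hu
  let e : E d := ‖u‖⁻¹ • u
  have he : ‖e‖ = 1 := norm_smul_inv_norm (norm_pos_iff.1 hD)
  have heV : e ∈ Vᗮ := Submodule.smul_mem _ _ (Submodule.starProjection_apply_mem _ _)
  have hev : ⟪e, v⟫ = ‖u‖ := by
    have h1 : ⟪u, v⟫ = ‖u‖ ^ 2 := by
      have h2 : ⟪v - u, u⟫ = 0 :=
        Submodule.starProjection_inner_eq_zero v u (Submodule.starProjection_apply_mem _ _)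
      rw [inner_sub_left, real_inner_self_eq_norm_sq, real_inner_comm] at h2
      linarith
    rw [real_inner_smul_left, h1]
    field_simp
  have hm : Measurable fun p : E d × ℝ => p.1 + (p.2 - ⟪e, p.1⟫) • e := by fun_prop
  have hSv := hS.inter (measurableSet_slab v η)
  conv_lhs => rw [← gam_resample he, Measure.map_apply hm hSv, Measure.prod_apply (hm hSv)]
  rw [mul_comm, ← setLIntegral_const, ← lintegral_indicator hS]
  refine lintegral_mono fun x => ?_
  by_cases hx : x ∈ S
  · rw [indicator_of_mem hx]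
    refine le_trans (measure_mono fun g hg => ?_)
      (gaussianReal_slab (⟪x, v⟫ - ⟪e, x⟫ * ‖u‖) hD)
    have h1 : |⟪x + (g - ⟪e, x⟫) • e, v⟫| ≤ η := hg.2
    rw [inner_add_left, real_inner_smul_left, hev] at h1
    change |_| ≤ η
    rwa [show ⟪x, v⟫ - ⟪e, x⟫ * ‖u‖ + g * ‖u‖ = ⟪x, v⟫ + (g - ⟪e, x⟫) * ‖u‖ by ring]
  · rw [indicator_of_notMem hx, nonpos_iff_eq_zero]
    refine measure_mono_null (fun g hg => hx ?_) measure_empty
    have h1 := hI _ hg.1 (-((g - ⟪e, x⟫) • e)) (Submodule.neg_mem _ (Submodule.smul_mem _ _ heV))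
    simpa using h1

theorem lintegral_norm_sq_gam :
    ∫⁻ x, ENNReal.ofReal (‖x‖ ^ 2) ∂(gam d) = d := by
  have h1 : ∀ i : Fin d, ∫⁻ x, ENNReal.ofReal (x i ^ 2) ∂(gam d) = 1 := by
    intro i
    let L : StrongDual ℝ (E d) := innerSL ℝ (EuclideanSpace.single i (1 : ℝ))
    have hL : ∀ x : E d, L x = x i := fun x => by simp [L, EuclideanSpace.inner_single_left]
    have h2 := variance_dual_stdGaussian L
    rw [variance_eq_integral L.continuous.aemeasurable, integral_strongDual_stdGaussian] at h2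
    have h3 : Integrable (fun x => (L x) ^ 2) (gam d) :=
      (IsGaussian.memLp_dual (gam d) L 2 (by simp)).integrable_sq
    simp_rw [← hL]
    rw [← ofReal_integral_eq_lintegral_ofReal h3 (ae_of_all _ fun x => sq_nonneg _)]
    simp only [sub_zero] at h2
    rw [h2]
    simp [L]
  simp_rw [EuclideanSpace.real_norm_sq_eq,
    ENNReal.ofReal_sum_of_nonneg fun i _ => sq_nonneg _]
  rw [lintegral_finsetSum _ fun i _ => by fun_prop]
  simp [h1]

end Vale.Agent.P309b
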