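import Vale.Agent.P309b.Energy
import Vale.Agent.P309b.Ell

/-! The block estimate: one block of rows multiplies the Frostman constant by a bounded factor. -/

namespace Vale.Agent.P309b

open MeasureTheory ProbabilityTheory Set Metric
open scoped RealInnerProductSpace ENNReal

variable {d k : ℕ}

/-- the labels of the signal `s` -/
noncomputable def lab (X : Fin k → E d) (s : E d) : Fin k → ℝ := fun j => ⟪X j, s⟫

theorem continuous_lab : Continuous fun p : (Fin k → E d) × E d => lab p.1 p.2 := by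
  unfold lab
  fun_prop

theorem measurable_lab {α : Type*} [MeasurableSpace α] {X : α → Fin k → E d} {s : α → E d}
    (hX : Measurable X) (hs : Measurable s) : Measurable fun a => lab (X a) (s a) :=
  continuous_lab.measurable.comp (hX.prodMk hs)

theorem split_le (ν : Measure (E d)) [SFinite ν] (X : Fin k → E d) {A : Set (E d)}
    (hA : MeasurableSet A) {U : Set (Fin k → ℝ)} (hU : MeasurableSet U) {δ : ℝ} (hδ : 0 < δ)
    (h : ∀ s ∈ A, closedBall (lab X s) δ ⊆ U) {l : ℝ≥0∞} (hl0 : l ≠ 0) (hl : l ≠ ∞) (m : ℕ) :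
    ν A ≤ l * volume U + (l * ENNReal.ofReal ((2 * δ) ^ k))⁻¹ ^ m *
      ∫⁻ s, ν (near X s (2 * δ)) ^ m ∂ν := by
  set c := ENNReal.ofReal ((2 * δ) ^ k) with hc
  have hc0 : c ≠ 0 := by
    rw [hc, Ne, ENNReal.ofReal_eq_zero, not_le]; positivity
  have hN : Measurable fun s => ν (near X s (2 * δ)) :=
    measurable_near ν _ measurable_const measurable_id
  let G : Set (E d) := {s | ν (near X s (2 * δ)) ≤ l * c}
  have hG : MeasurableSet G := measurableSet_le hN measurable_const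
  have h1 : ν Gᶜ ≤ (l * c)⁻¹ ^ m * ∫⁻ s, ν (near X s (2 * δ)) ^ m ∂ν := by
    rw [← lintegral_const_mul _ (hN.pow_const m), ← lintegral_indicator_one hG.compl]
    refine lintegral_mono fun s => ?_
    by_cases hs : s ∈ Gᶜ
    · rw [indicator_of_mem hs, ← mul_pow, Pi.one_apply]
      refine one_le_pow₀ ?_
      rw [← ENNReal.inv_mul_cancel (mul_ne_zero hl0 hc0)
        (ENNReal.mul_ne_top hl ENNReal.ofReal_ne_top)]
      exact mul_le_mul_right (not_le.1 (show ¬ ν (near X s (2 * δ)) ≤ l * c from hs)).le _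
    · rw [indicator_of_notMem hs]
      exact zero_le
  let Q : Set (E d × (Fin k → ℝ)) := {p | p.1 ∈ G ∧ p.2 ∈ U ∧ dist p.2 (lab X p.1) ≤ δ}
  have hQ : MeasurableSet Q :=
    (measurable_fst hG).inter ((measurable_snd hU).inter (measurableSet_le
      (measurable_snd.dist (measurable_lab measurable_const measurable_fst)) measurable_const))
  have h2 : c * ν (A ∩ G) ≤ (ν.prod volume) Q := by
    rw [Measure.prod_apply hQ, ← lintegral_indicator_const (hA.inter hG)]
    refine lintegral_mono fun s => ?_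
    by_cases hs : s ∈ A ∩ G
    · rw [indicator_of_mem hs]
      have h3 := Real.volume_pi_closedBall (lab X s) hδ.le
      rw [Fintype.card_fin] at h3
      rw [hc, ← h3]
      exact measure_mono fun y hy => ⟨hs.2, h s hs.1 hy, hy⟩
    · rw [indicator_of_notMem hs]
      exact zero_le
  have h3 : (ν.prod volume) Q ≤ l * c * volume U := by
    rw [Measure.prod_apply_symm hQ, ← lintegral_indicator_const hU]
    refine lintegral_mono fun y => ?_
    rcases ((fun s => (s, y)) ⁻¹' Q).eq_empty_or_nonempty with h0 | ⟨s0, hs0⟩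
    · simp only [h0, measure_empty]
      exact zero_le
    · rw [indicator_of_mem hs0.2.1]
      refine le_trans (measure_mono fun s hs => ?_)
        (show ν (near X s0 (2 * δ)) ≤ l * c from hs0.1)
      intro j
      have a1 := (dist_le_pi_dist y (lab X s) j).trans hs.2.2
      have a2 := (dist_le_pi_dist y (lab X s0) j).trans hs0.2.2
      rw [Real.dist_eq, abs_le] at a1 a2
      rw [inner_sub_right, abs_le]
      unfold lab at a1 a2
      constructor <;> linarith [a1.1, a1.2, a2.1, a2.2]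
  have h4 : ν (A ∩ G) ≤ l * volume U := by
    rw [← ENNReal.mul_le_mul_iff_right hc0 ENNReal.ofReal_ne_top, ← mul_assoc, mul_comm c l]
    exact h2.trans h3
  calc ν A ≤ ν (A ∩ G) + ν (A \ G) := measure_le_inter_add_sdiff _ _ _
    _ ≤ _ := add_le_add h4 ((measure_mono fun s hs => hs.2).trans h1)

/-- joint law of rows and labels -/
noncomputable def Lam (k : ℕ) (ν : Measure (E d)) : Measure ((Fin k → E d) × (Fin k → ℝ)) :=
  ((Measure.pi fun _ : Fin k => gam d).prod ν).map fun p => (p.1, lab p.1 p.2)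

theorem Lam_apply (ν : Measure (E d)) [SFinite ν] {A : Set ((Fin k → E d) × (Fin k → ℝ))}
    (hA : MeasurableSet A) :
    Lam k ν A = ∫⁻ X, ν {s | (X, lab X s) ∈ A} ∂(Measure.pi fun _ : Fin k => gam d) := by
  have hm : Measurable fun p : (Fin k → E d) × E d => (p.1, lab p.1 p.2) :=
    measurable_fst.prodMk continuous_lab.measurable
  rw [Lam, Measure.map_apply hm hA, Measure.prod_apply (hm hA)]
  rfl

/-- the reference measure -/
noncomputable def Lam0 (d k : ℕ) : Measure ((Fin k → E d) × (Fin k → ℝ)) :=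
  ((Measure.pi fun _ : Fin k => gam d).prod volume).restrict (Ell d k)

theorem Lam_compact_le {ν : Measure (E d)} [SFinite ν] {β m : ℕ} {F : ℝ≥0∞} (h : Fr ν β F)
    (hF0 : F ≠ 0) (hF : F ≠ ∞) (hν : ν (closedBall 0 1)ᶜ = 0) (hβ : k + m + 1 ≤ β)
    {a : ℝ≥0∞} (ha0 : a ≠ 0) (ha : a ≠ ∞) {K U : Set ((Fin k → E d) × (Fin k → ℝ))}
    (hK : IsCompact K) (hU : IsOpen U) (hKU : K ⊆ U) :
    Lam k ν K ≤ a * (F * ENNReal.ofReal (2 ^ (m + 1) * 4 ^ β)) * Lam0 d k U + a⁻¹ ^ m * F := by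
  obtain ⟨δ0, hδ0, hth⟩ := hK.exists_cthickening_subset_open hU hKU
  set δ := min δ0 (1 / (k + 1)) with hδ
  have hδp : 0 < δ := lt_min hδ0 (by positivity)
  have hB0 : ENNReal.ofReal (2 ^ (m + 1) * 4 ^ β) ≠ 0 := by
    rw [Ne, ENNReal.ofReal_eq_zero, not_le]; positivity
  have hc0 : ENNReal.ofReal ((2 * δ) ^ k) ≠ 0 := by
    rw [Ne, ENNReal.ofReal_eq_zero, not_le]; positivity
  set l := a * (F * ENNReal.ofReal (2 ^ (m + 1) * 4 ^ β)) with hl
  have hl0 : l ≠ 0 := mul_ne_zero ha0 (mul_ne_zero hF0 hB0)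
  have hlt : l ≠ ∞ := ENNReal.mul_ne_top ha (ENNReal.mul_ne_top hF ENNReal.ofReal_ne_top)
  have hUE := hU.measurableSet.inter (measurableSet_Ell d k)
  have h1 : ∀ X, ν {s | (X, lab X s) ∈ K} ≤ l * volume (Prod.mk X ⁻¹' (U ∩ Ell d k)) +
      (l * ENNReal.ofReal ((2 * δ) ^ k))⁻¹ ^ m * ∫⁻ s, ν (near X s (2 * δ)) ^ m ∂ν := by
    intro X
    have hA : MeasurableSet {s | (X, lab X s) ∈ K} :=
      (measurable_const.prodMk (measurable_lab measurable_const measurable_id)) hK.measurableSet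
    rw [← measure_inter_conull hν]
    refine split_le ν X (hA.inter measurableSet_closedBall) (measurable_prodMk_left hUE) hδp
      (fun s hs y hy => ⟨hth ?_, s, mem_closedBall_zero_iff.1 hs.2, ?_⟩) hl0 hlt m
    · refine mem_cthickening_of_dist_le _ (X, lab X s) _ _ hs.1 ?_
      rw [Prod.dist_eq, dist_self]
      exact max_le hδ0.le (le_trans hy (min_le_left _ _))
    · have h2 : ∀ j, (y j - ⟪X j, s⟫) ^ 2 ≤ 1 / (k + 1) := fun j => by
        have a1 : |y j - ⟪X j, s⟫| ≤ 1 / (k + 1) :=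
          ((dist_le_pi_dist y (lab X s) j).trans hy).trans (min_le_right _ _)
        have a2 : 1 / ((k : ℝ) + 1) ≤ 1 := by
          rw [div_le_one (by positivity)]
          linarith [(Nat.cast_nonneg k : (0 : ℝ) ≤ k)]
        rw [← sq_abs]
        nlinarith [abs_nonneg (y j - ⟪X j, s⟫)]
      refine (Finset.sum_le_card_nsmul _ _ _ fun j _ => h2 j).trans ?_
      rw [Finset.card_univ, Fintype.card_fin, nsmul_eq_mul, mul_one_div, div_le_one (by positivity)]
      linarith
  rw [Lam_apply ν hK.measurableSet]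
  refine (lintegral_mono h1).trans ?_
  have hm1 : Measurable fun X : Fin k → E d => volume (Prod.mk X ⁻¹' (U ∩ Ell d k)) :=
    measurable_measure_prodMk_left hUE
  rw [lintegral_add_left (hm1.const_mul _), lintegral_const_mul _ hm1, ← Measure.prod_apply hUE,
    Lam0, Measure.restrict_apply hU.measurableSet, lintegral_const_mul' _ _
      (ENNReal.pow_ne_top (ENNReal.inv_ne_top.2 (mul_ne_zero hl0 hc0)))]
  refine add_le_add_right ((mul_le_mul_right (moment_bound h hν hβ (by positivity)) _).trans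
    (le_of_eq ?_)) _
  rw [mul_left_comm, mul_comm F, ← mul_pow, ENNReal.ofReal_mul (by positivity)]
  congr 2
  have hD0 : F * (ENNReal.ofReal ((2 * δ) ^ k) * ENNReal.ofReal (2 ^ (m + 1) * 4 ^ β)) ≠ 0 :=
    mul_ne_zero hF0 (mul_ne_zero hc0 hB0)
  have hD : F * (ENNReal.ofReal ((2 * δ) ^ k) * ENNReal.ofReal (2 ^ (m + 1) * 4 ^ β)) ≠ ∞ :=
    ENNReal.mul_ne_top hF (ENNReal.mul_ne_top ENNReal.ofReal_ne_top ENNReal.ofReal_ne_top)
  rw [hl, mul_assoc a, mul_assoc F, mul_comm _ (ENNReal.ofReal ((2 * δ) ^ k)),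
    ENNReal.mul_inv (Or.inl ha0) (Or.inl ha), mul_assoc, ENNReal.inv_mul_cancel hD0 hD, mul_one]

theorem Lam_le {ν : Measure (E d)} [IsFiniteMeasure ν] {β m : ℕ} {F : ℝ≥0∞} (h : Fr ν β F)
    (hF0 : F ≠ 0) (hF : F ≠ ∞) (hν : ν (closedBall 0 1)ᶜ = 0) (hβ : k + m + 1 ≤ β)
    (hd : 1 ≤ d) (hk : k ≤ d) {a : ℝ≥0∞} (ha0 : a ≠ 0) (ha : a ≠ ∞)
    {A : Set ((Fin k → E d) × (Fin k → ℝ))} (hA : MeasurableSet A) :
    Lam k ν A ≤ a * (F * ENNReal.ofReal (2 ^ (m + 1) * 4 ^ β)) * Lam0 d k A + a⁻¹ ^ m * F := by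
  have : IsFiniteMeasure (Lam0 d k) := ⟨by
    rw [Lam0, Measure.restrict_apply_univ]
    exact (measure_Ell_le hd hk).trans_lt (ENNReal.pow_lt_top (by simp))⟩
  have : IsFiniteMeasure (Lam k ν) := by
    unfold Lam
    infer_instance
  set l := a * (F * ENNReal.ofReal (2 ^ (m + 1) * 4 ^ β)) with hl
  have hlt : l ≠ ∞ := ENNReal.mul_ne_top ha (ENNReal.mul_ne_top hF ENNReal.ofReal_ne_top)
  rw [hA.measure_eq_iSup_isCompact (Lam k ν)]
  refine iSup_le fun K => iSup_le fun hKA => iSup_le fun hK => ?_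
  refine ENNReal.le_of_forall_pos_le_add fun ε hε _ => ?_
  obtain ⟨U, hAU, hU, hUε⟩ := A.exists_isOpen_le_add (Lam0 d k) (ε := ε / l)
    (ENNReal.div_ne_zero.2 ⟨by exact_mod_cast hε.ne', hlt⟩)
  refine (Lam_compact_le h hF0 hF hν hβ ha0 ha hK hU (hKA.trans hAU)).trans ?_
  rw [add_right_comm]
  refine add_le_add_left ((mul_le_mul_right hUε _).trans ?_) _
  rw [mul_add]
  exact add_le_add_right ENNReal.mul_div_le _

theorem block_unit {Z : Type*} (T : Finset Z) (ν : Z → Measure (E d))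
    [∀ z, IsFiniteMeasure (ν z)] {β m : ℕ} {F : ℝ≥0∞} (h : ∀ z, Fr (ν z) β F)
    (hF0 : F ≠ 0) (hF : F ≠ ∞) (hν : ∀ z, ν z (closedBall 0 1)ᶜ = 0) (hβ : k + m + 1 ≤ β)
    (hd : 1 ≤ d) (hk : k ≤ d) {a : ℕ} (ha0 : a ≠ 0) (hT : T.card ≤ a ^ m)
    (f : (Fin k → E d) × (Fin k → ℝ) → Z) (hf : ∀ z, MeasurableSet (f ⁻¹' {z})) :
    ∑ z ∈ T, Lam k (ν z) (f ⁻¹' {z}) ≤
      ((a * (2 ^ (m + 1) * 4 ^ β) * 32 ^ d + 1 : ℕ) : ℝ≥0∞) * F := by
  have ha0' : (a : ℝ≥0∞) ≠ 0 := by exact_mod_cast ha0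
  refine (Finset.sum_le_sum fun z _ =>
    Lam_le (h z) hF0 hF (hν z) hβ hd hk ha0' (ENNReal.natCast_ne_top a) (hf z)).trans ?_
  rw [Finset.sum_add_distrib, ← Finset.mul_sum, Finset.sum_const, nsmul_eq_mul,
    sum_measure_preimage_singleton T fun z _ => hf z, Nat.cast_add, add_mul, Nat.cast_one]
  refine add_le_add ?_ ?_
  · have h1 : Lam0 d k (f ⁻¹' T) ≤ 32 ^ d := by
      refine (measure_mono (subset_univ _)).trans ?_
      rw [Lam0, Measure.restrict_apply_univ]
      exact measure_Ell_le hd hk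
    refine (mul_le_mul_right h1 _).trans (le_of_eq ?_)
    rw [ENNReal.ofReal_mul (by positivity), ENNReal.ofReal_pow (by norm_num),
      ENNReal.ofReal_pow (by norm_num), ENNReal.ofReal_ofNat, ENNReal.ofReal_ofNat]
    push_cast
    ring
  · rw [← mul_assoc]
    refine mul_le_mul_left ?_ _
    have h1 : (T.card : ℝ≥0∞) ≤ a ^ m := by exact_mod_cast hT
    refine (mul_le_mul_left h1 _).trans (le_of_eq ?_)
    rw [← mul_pow, ENNReal.mul_inv_cancel ha0' (ENNReal.natCast_ne_top a), one_pow]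

theorem block {Z : Type*} (T : Finset Z) (ν : Z → Measure (E d))
    [∀ z, IsFiniteMeasure (ν z)] {β m : ℕ} {F : ℝ≥0∞} (h : ∀ z, Fr (ν z) β F)
    (hF0 : F ≠ 0) (hF : F ≠ ∞) (hβ : k + m + 1 ≤ β)
    (hd : 1 ≤ d) (hk : k ≤ d) {a : ℕ} (ha0 : a ≠ 0) (hT : T.card ≤ a ^ m)
    (f : (Fin k → E d) × (Fin k → ℝ) → Z) (hf : ∀ z, MeasurableSet (f ⁻¹' {z}))
    (x0 : E d) {R : ℝ} (hR : 0 < R) :
    ∑ z ∈ T, ∫⁻ X, ν z ({s | f (X, lab X s) = z} ∩ closedBall x0 R)
        ∂(Measure.pi fun _ : Fin k => gam d) ≤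
      ((a * (2 ^ (m + 1) * 4 ^ β) * 32 ^ d + 1 : ℕ) : ℝ≥0∞) * F * ENNReal.ofReal (R ^ β) := by
  let φ : E d → E d := fun s => R⁻¹ • (s - x0)
  have hφ : Measurable φ := by fun_prop
  let ν' : Z → Measure (E d) := fun z => ((ν z).restrict (closedBall x0 R)).map φ
  let g : (Fin k → E d) × (Fin k → ℝ) → (Fin k → E d) × (Fin k → ℝ) :=
    fun p => (p.1, R • p.2 + lab p.1 x0)
  have hg : Measurable g := measurable_fst.prodMk
    ((measurable_snd.const_smul R).add (measurable_lab measurable_fst measurable_const))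
  have hR0 : ENNReal.ofReal (R ^ β) ≠ 0 := by
    rw [Ne, ENNReal.ofReal_eq_zero, not_le]; positivity
  have h1 := block_unit T ν' (F := F * ENNReal.ofReal (R ^ β)) (β := β) (m := m)
    (fun z x r hr => by
      rw [Measure.map_apply hφ measurableSet_closedBall]
      refine (Measure.restrict_le_self _).trans ?_
      rw [mul_assoc, ← ENNReal.ofReal_mul (by positivity), ← mul_pow]
      refine le_trans (measure_mono fun s hs => ?_) (h z (x0 + R • x) (R * r) (by positivity))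
      have e : s - (x0 + R • x) = R • (φ s - x) := by
        simp only [φ, smul_sub, smul_smul, mul_inv_cancel₀ hR.ne', one_smul]
        abel
      rw [mem_closedBall, dist_eq_norm, e, norm_smul, Real.norm_of_nonneg hR.le, ← dist_eq_norm]
      exact mul_le_mul_of_nonneg_left hs hR.le)
    (mul_ne_zero hF0 hR0) (ENNReal.mul_ne_top hF ENNReal.ofReal_ne_top)
    (fun z => by
      rw [Measure.map_apply hφ measurableSet_closedBall.compl,
        Measure.restrict_apply (hφ measurableSet_closedBall.compl)]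
      refine measure_mono_null (fun s hs => hs.1 ?_) measure_empty
      have h2 : ‖s - x0‖ ≤ R := by
        rw [← dist_eq_norm]
        exact hs.2
      rw [mem_closedBall_zero_iff, norm_smul, norm_inv, Real.norm_of_nonneg hR.le,
        inv_mul_le_iff₀ hR, mul_one]
      exact h2)
    hβ hd hk ha0 hT (f ∘ g) fun z => hg (hf z)
  rw [mul_assoc]
  refine le_trans (le_of_eq (Finset.sum_congr rfl fun z _ => ?_)) h1
  rw [preimage_comp, Lam_apply _ (hg (hf z))]
  refine lintegral_congr fun X => ?_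
  have hA : MeasurableSet {s | (X, lab X s) ∈ g ⁻¹' (f ⁻¹' {z})} :=
    (measurable_const.prodMk (measurable_lab measurable_const measurable_id)) (hg (hf z))
  rw [Measure.map_apply hφ hA, Measure.restrict_apply (hφ hA)]
  congr 2
  ext s
  have e : R • lab X (φ s) + lab X x0 = lab X s := by
    funext j
    simp only [lab, φ, Pi.add_apply, Pi.smul_apply, smul_eq_mul, real_inner_smul_right,
      inner_sub_right]
    field_simp
    ring
  change _ ↔ f (X, R • lab X (φ s) + lab X x0) = z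
  rw [e]
  rfl

end Vale.Agent.P309b
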