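import Vale.Agent.P309b.Key

/-! Deterministic machines reading Gaussian rows with their labels. -/

namespace Vale.Agent.P309b

open MeasureTheory ProbabilityTheory Set Metric
open scoped RealInnerProductSpace ENNReal

variable {Z : Type*} [MeasurableSpace Z] [Countable Z] [MeasurableSingletonClass Z]

theorem measurable_eval {α β : Type*} [MeasurableSpace α] [MeasurableSpace β] {g : Z → α → β}
    (hg : ∀ z, Measurable (g z)) {z : α → Z} (hz : Measurable z) :
    Measurable fun a => g (z a) a :=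
  (measurable_from_prod_countable_right (f := fun q : Z × α => g q.1 q.2) hg).comp
    (hz.prodMk measurable_id)

theorem measurable_foldl {α P : Type*} [MeasurableSpace α] [MeasurableSpace P]
    (nxt : α → Z → P → Z) (hn : ∀ z, Measurable fun q : α × P => nxt q.1 z q.2) (n : ℕ) :
    ∀ (z : α → Z) (_ : Measurable z) (p : Fin n → α → P) (_ : ∀ i, Measurable (p i)),
      Measurable fun a => (List.ofFn fun i => p i a).foldl (nxt a) (z a) := by
  induction n with
  | zero =>
    intro z hz p _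
    simpa using hz
  | succ n ih =>
    intro z hz p hp
    simp only [List.ofFn_succ, List.foldl_cons]
    exact ih _ (measurable_eval (g := fun z a => nxt a z (p 0 a))
      (fun z => (hn z).comp (measurable_id.prodMk (hp 0))) hz) _ fun i => hp _

variable {d : ℕ} (nxt : Z → E d × ℝ → Z)

/-- the state after reading rows `X` with labels `y` -/
def fin {k : ℕ} (z : Z) (p : (Fin k → E d) × (Fin k → ℝ)) : Z :=
  (List.ofFn fun i => (p.1 i, p.2 i)).foldl nxt z

/-- expected value of `g` after `n` more rows -/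
noncomputable def Op (n : ℕ) (g : Z → E d → ℝ≥0∞) (z : Z) (s : E d) : ℝ≥0∞ :=
  ∫⁻ X : Fin n → E d, g (fin nxt z (X, lab X s)) s ∂(Measure.pi fun _ => gam d)

variable {nxt}

theorem measurable_fin (hn : ∀ z, Measurable (nxt z)) (k : ℕ) (z : Z) :
    Measurable (fin nxt (k := k) z) :=
  measurable_foldl (fun _ => nxt) (fun z => (hn z).comp measurable_snd) k _ measurable_const
    (fun i (p : (Fin k → E d) × (Fin k → ℝ)) => (p.1 i, p.2 i)) fun i => by fun_prop

theorem measurable_fin_lab (hn : ∀ z, Measurable (nxt z)) (k : ℕ) (z : Z) :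
    Measurable fun q : E d × (Fin k → E d) => fin nxt z (q.2, lab q.2 q.1) :=
  (measurable_fin hn k z).comp
    (measurable_snd.prodMk (measurable_lab measurable_snd measurable_fst))

theorem measurable_Op (hn : ∀ z, Measurable (nxt z)) (n : ℕ) {g : Z → E d → ℝ≥0∞}
    (hg : ∀ z, Measurable (g z)) (z : Z) : Measurable (Op nxt n g z) :=
  Measurable.lintegral_prod_right'
    (f := fun q : E d × (Fin n → E d) => g (fin nxt z (q.2, lab q.2 q.1)) q.1)
    (measurable_eval (g := fun z (q : E d × (Fin n → E d)) => g z q.1)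
      (fun z => (hg z).comp measurable_fst) (measurable_fin_lab hn n z))

omit [MeasurableSpace Z] [Countable Z] [MeasurableSingletonClass Z] in
theorem Op_le_one (n : ℕ) {g : Z → E d → ℝ≥0∞} (hg : ∀ z s, g z s ≤ 1) (z : Z) (s : E d) :
    Op nxt n g z s ≤ 1 :=
  (lintegral_mono fun _ => hg _ _).trans (by simp)

omit [MeasurableSpace Z] [Countable Z] [MeasurableSingletonClass Z] in
theorem Op_zero (g : Z → E d → ℝ≥0∞) (z : Z) (s : E d) : Op nxt 0 g z s = g z s := by
  simp [Op, fin]

theorem Op_succ (hn : ∀ z, Measurable (nxt z)) (n : ℕ) (g : Z → E d → ℝ≥0∞) (z : Z) (s : E d) :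
    Op nxt (n + 1) g z s = ∫⁻ x, Op nxt n g (nxt z (x, ⟪x, s⟫)) s ∂(gam d) := by
  unfold Op
  rw [lintegral_cons (gam d) (F := fun X => g (fin nxt z (X, lab X s)) s)
    ((measurable_of_countable fun z => g z s).comp
      ((measurable_fin_lab hn (n + 1) z).comp measurable_prodMk_left))]
  simp [fin, lab, List.ofFn_succ]

theorem Op_add (hn : ∀ z, Measurable (nxt z)) (k n : ℕ) (g : Z → E d → ℝ≥0∞) (s : E d) :
    ∀ z, Op nxt (k + n) g z s = Op nxt k (Op nxt n g) z s := by
  induction k with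
  | zero =>
    intro z
    rw [Nat.zero_add, Op_zero]
  | succ k ih =>
    intro z
    rw [Nat.succ_add, Op_succ hn, Op_succ hn]
    exact lintegral_congr fun x => ih _

theorem fr_step (hn : ∀ z, Measurable (nxt z)) (σ : Measure (E d)) [IsFiniteMeasure σ]
    {g : Z → E d → ℝ≥0∞} (hg : ∀ z, Measurable (g z)) (hg1 : ∀ z s, g z s ≤ 1)
    {β k m : ℕ} {F : ℝ≥0∞} (h : ∀ z, Fr (σ.withDensity (g z)) β F) (hF0 : F ≠ 0) (hF : F ≠ ∞)
    (hβ : k + m + 1 ≤ β) (hd : 1 ≤ d) (hk : k ≤ d) {a : ℕ} (ha0 : a ≠ 0) (z : Z)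
    (T : Finset Z) (hT : T.card ≤ a ^ m) (hreach : ∀ p, fin nxt (k := k) z p ∈ T) :
    Fr (σ.withDensity (Op nxt k g z)) β
      (((a * (2 ^ (m + 1) * 4 ^ β) * 32 ^ d + 1 : ℕ) : ℝ≥0∞) * F) := by
  intro x0 R hR
  have : ∀ z, IsFiniteMeasure (σ.withDensity (g z)) := fun z =>
    isFiniteMeasure_withDensity (ne_top_of_le_ne_top (measure_ne_top σ univ)
      ((lintegral_mono (hg1 z)).trans (by simp)))
  have hfl : Measurable fun q : (Fin k → E d) × E d => fin nxt z (q.1, lab q.1 q.2) :=
    (measurable_fin hn k z).comp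
      (measurable_fst.prodMk (measurable_lab measurable_fst measurable_snd))
  have hset : ∀ z', MeasurableSet {q : (Fin k → E d) × E d |
      fin nxt z (q.1, lab q.1 q.2) = z' ∧ q.2 ∈ closedBall x0 R} := fun z' =>
    (measurableSet_eq_fun hfl measurable_const).inter (measurable_snd measurableSet_closedBall)
  refine le_trans ?_ (block T (fun z => σ.withDensity (g z)) h hF0 hF hβ hd hk ha0 hT
    (fin nxt z) (fun z' => measurable_fin hn k z (measurableSet_singleton z')) x0 hR)
  have he : ∀ z' (X : Fin k → E d), {s | fin nxt z (X, lab X s) = z'} ∩ closedBall x0 R =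
      Prod.mk X ⁻¹' {q : (Fin k → E d) × E d |
        fin nxt z (q.1, lab q.1 q.2) = z' ∧ q.2 ∈ closedBall x0 R} := fun _ _ => rfl
  have hmm : ∀ z', Measurable fun X : Fin k → E d =>
      σ.withDensity (g z') ({s | fin nxt z (X, lab X s) = z'} ∩ closedBall x0 R) := fun z' => by
    simp_rw [he]
    exact measurable_measure_prodMk_left (hset z')
  rw [withDensity_apply _ measurableSet_closedBall, ← lintegral_finsetSum _ fun z' _ => hmm z']
  unfold Op
  have hsw : Measurable fun q : E d × (Fin k → E d) => g (fin nxt z (q.2, lab q.2 q.1)) q.1 :=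
    measurable_eval (g := fun z (q : E d × (Fin k → E d)) => g z q.1)
      (fun z => (hg z).comp measurable_fst) (measurable_fin_lab hn k z)
  rw [lintegral_lintegral_swap (f := fun s X => g (fin nxt z (X, lab X s)) s) hsw.aemeasurable]
  refine lintegral_mono fun X => ?_
  have hs : ∀ z', MeasurableSet ({s | fin nxt z (X, lab X s) = z'} ∩ closedBall x0 R) :=
    fun z' => by
      rw [he]
      exact measurable_prodMk_left (hset z')
  change _ ≤ ∑ z' ∈ T, σ.withDensity (g z') ({s | fin nxt z (X, lab X s) = z'} ∩ closedBall x0 R)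
  simp_rw [withDensity_apply _ (hs _), ← lintegral_indicator (hs _)]
  rw [← lintegral_finsetSum _ fun z' _ => (hg z').indicator (hs z'),
    ← lintegral_indicator measurableSet_closedBall]
  refine lintegral_mono fun s => ?_
  by_cases hsb : s ∈ closedBall x0 R
  · rw [indicator_of_mem hsb]
    refine le_trans (le_of_eq ?_) (Finset.single_le_sum (f := fun z' =>
      ({s | fin nxt z (X, lab X s) = z'} ∩ closedBall x0 R).indicator (g z') s)
      (fun _ _ => zero_le) (hreach (X, lab X s)))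
    exact (indicator_of_mem (show s ∈ {s' | fin nxt z (X, lab X s') = fin nxt z (X, lab X s)} ∩
      closedBall x0 R from ⟨rfl, hsb⟩) _).symm
  · rw [indicator_of_notMem hsb]
    exact zero_le

theorem fr_iter (hn : ∀ z, Measurable (nxt z)) (σ : Measure (E d)) [IsFiniteMeasure σ]
    {g : Z → E d → ℝ≥0∞} (hg : ∀ z, Measurable (g z)) (hg1 : ∀ z s, g z s ≤ 1)
    {β k m : ℕ} {F : ℝ≥0∞} (h : ∀ z, Fr (σ.withDensity (g z)) β F) (hF0 : F ≠ 0) (hF : F ≠ ∞)
    (hβ : k + m + 1 ≤ β) (hd : 1 ≤ d) (hk : k ≤ d) {a : ℕ} (ha0 : a ≠ 0)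
    (hreach : ∀ z, ∀ k' ≤ k, ∃ T : Finset Z, T.card ≤ a ^ m ∧ ∀ p, fin nxt (k := k') z p ∈ T)
    (J : ℕ) : ∀ n ≤ J * k, ∀ z, Fr (σ.withDensity (Op nxt n g z)) β
      (((a * (2 ^ (m + 1) * 4 ^ β) * 32 ^ d + 1 : ℕ) : ℝ≥0∞) ^ J * F) := by
  induction J with
  | zero =>
    intro n hn0 z
    obtain rfl : n = 0 := by omega
    rw [pow_zero, one_mul, show Op nxt 0 g z = g z from funext (Op_zero g z)]
    exact h z
  | succ J ih =>
    intro n hnJ z
    obtain ⟨k', n', hk', hn', rfl⟩ : ∃ k' n', k' ≤ k ∧ n' ≤ J * k ∧ n = k' + n' := by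
      rw [Nat.succ_mul] at hnJ
      exact ⟨min n k, n - min n k, min_le_right _ _, by omega, by omega⟩
    obtain ⟨T, hT, hr⟩ := hreach z k' hk'
    rw [show Op nxt (k' + n') g z = Op nxt k' (Op nxt n' g) z from
      funext fun s => Op_add hn k' n' g s z, pow_succ', mul_assoc]
    exact fr_step hn σ (measurable_Op hn n' hg) (Op_le_one n' hg1) (ih n' hn')
      (mul_ne_zero (pow_ne_zero _ (Nat.cast_ne_zero.2 (Nat.succ_ne_zero _))) hF0)
      (ENNReal.mul_ne_top (ENNReal.pow_ne_top (ENNReal.natCast_ne_top _)) hF) (by omega) hd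
      (by omega) ha0 z T hT hr

end Vale.Agent.P309b
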