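import Vale.Agent.P309b.Energy

/-! The uniform measure on the sphere: caps, invariance and tubes. -/

namespace Vale.Agent.P309b

open MeasureTheory ProbabilityTheory Set Metric
open scoped RealInnerProductSpace ENNReal Pointwise

variable {d : ℕ}

/-- the uniform measure on the sphere as a measure on the ambient space -/
noncomputable def sig (d : ℕ) : Measure (E d) := (unif d).map Subtype.val

theorem ball_ne_zero : (volume : Measure (E d)) (ball 0 1) ≠ 0 :=
  (measure_ball_pos _ 0 one_pos).ne'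

theorem unif_prob (hd : 1 ≤ d) : IsProbabilityMeasure (unif d) := by
  refine ⟨?_⟩
  rw [unif, Measure.smul_apply, smul_eq_mul]
  refine ENNReal.inv_mul_cancel ?_ (measure_ne_top _ _)
  rw [Measure.toSphere_apply_univ, finrank_euclideanSpace_fin]
  exact mul_ne_zero (by exact_mod_cast (by omega : d ≠ 0)) ball_ne_zero

theorem sig_prob (hd : 1 ≤ d) : IsProbabilityMeasure (sig d) :=
  have := unif_prob hd
  Measure.isProbabilityMeasure_map measurable_subtype_coe.aemeasurable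

theorem sig_apply (hd : 1 ≤ d) {G : Set (E d)} (hG : MeasurableSet G) :
    sig d G = ((volume : Measure (E d)) (ball 0 1))⁻¹ *
      volume (Ioo (0 : ℝ) 1 • (sphere (0 : E d) 1 ∩ G)) := by
  have h0 : (d : ℝ≥0∞) ≠ 0 := by exact_mod_cast (by omega : d ≠ 0)
  rw [sig, Measure.map_apply measurable_subtype_coe hG, unif, Measure.smul_apply, smul_eq_mul,
    Measure.toSphere_apply' _ (measurable_subtype_coe hG), Measure.toSphere_apply_univ,
    finrank_euclideanSpace_fin, Subtype.image_preimage_coe,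
    ENNReal.mul_inv (Or.inl h0) (Or.inl (ENNReal.natCast_ne_top d)), mul_mul_mul_comm,
    ENNReal.inv_mul_cancel h0 (ENNReal.natCast_ne_top d), one_mul]

theorem ae_sig : ∀ᵐ s ∂(sig d), ‖s‖ = 1 := by
  rw [sig, ae_map_iff measurable_subtype_coe.aemeasurable
    (isClosed_eq continuous_norm continuous_const).measurableSet]
  exact ae_of_all _ fun s => norm_eq_of_mem_sphere s

theorem sig_preimage (hd : 1 ≤ d) (ρ : E d ≃ₗᵢ[ℝ] E d) {G : Set (E d)} (hG : MeasurableSet G) :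
    sig d (ρ ⁻¹' G) = sig d G := by
  rw [sig_apply hd hG, sig_apply hd (ρ.continuous.measurable hG),
    ← ρ.measurePreserving.measure_preimage_emb ρ.toHomeomorph.measurableEmbedding
      (Ioo (0 : ℝ) 1 • (sphere (0 : E d) 1 ∩ G))]
  congr 2
  ext x
  constructor
  · rintro ⟨t, ht, s, hs, rfl⟩
    exact ⟨t, ht, ρ s, ⟨by simpa using hs.1, hs.2⟩, by simp⟩
  · rintro ⟨t, ht, s, hs, h⟩
    refine ⟨t, ht, ρ.symm s, ⟨by simpa using hs.1, by simpa using hs.2⟩, ?_⟩
    apply ρ.injective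
    simpa using h

theorem fr_sig (hd : 1 ≤ d) : Fr (sig d) (d - 1) (2 * 3 ^ d) := by
  intro x r hr
  have := sig_prob hd
  rcases le_or_gt 1 r with h1 | h1
  · refine prob_le_one.trans (one_le_mul (one_le_mul (by norm_num) (one_le_pow₀ (by norm_num))) ?_)
    exact ENNReal.one_le_ofReal.2 (one_le_pow₀ h1)
  rw [sig_apply hd measurableSet_closedBall]
  rcases (sphere (0 : E d) 1 ∩ closedBall x r).eq_empty_or_nonempty with h0 | ⟨s0, hs0⟩
  · simp [h0]
  have hsub : Ioo (0 : ℝ) 1 • (sphere (0 : E d) 1 ∩ closedBall x r) ⊆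
      ⋃ j ∈ Finset.range ⌈1 / r⌉₊, closedBall (((j : ℝ) * r) • s0) (3 * r) := by
    rintro _ ⟨t, ht, s, hs, rfl⟩
    have ht0 : 0 ≤ t / r := div_nonneg ht.1.le hr.le
    refine mem_iUnion₂.2 ⟨⌊t / r⌋₊, Finset.mem_range.2 ?_, ?_⟩
    · rw [Nat.floor_lt ht0]
      exact lt_of_lt_of_le (div_lt_div_of_pos_right ht.2 hr) (Nat.le_ceil _)
    · have a1 : (⌊t / r⌋₊ : ℝ) * r ≤ t := (le_div_iff₀ hr).1 (Nat.floor_le ht0)
      have a2 : t < ((⌊t / r⌋₊ : ℝ) + 1) * r := (div_lt_iff₀ hr).1 (Nat.lt_floor_add_one _)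
      have a3 : ‖s - s0‖ ≤ 2 * r := by
        rw [← dist_eq_norm]
        linarith [dist_triangle_right s s0 x, mem_closedBall.1 hs.2, mem_closedBall.1 hs0.2]
      have a4 : ‖s0‖ = 1 := mem_sphere_zero_iff_norm.1 hs0.1
      have e : t • s - ((⌊t / r⌋₊ : ℝ) * r) • s0 =
          t • (s - s0) + (t - (⌊t / r⌋₊ : ℝ) * r) • s0 := by
        rw [smul_sub, sub_smul]
        abel
      change dist (t • s) _ ≤ _
      rw [dist_eq_norm, e]
      refine (norm_add_le _ _).trans ?_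
      rw [norm_smul, norm_smul, a4, Real.norm_of_nonneg ht.1.le,
        Real.norm_of_nonneg (by linarith)]
      nlinarith [ht.1, ht.2, norm_nonneg (s - s0)]
  have h2 := (measure_mono (μ := volume) hsub).trans (measure_biUnion_finset_le _ _)
  simp_rw [Measure.addHaar_closedBall _ _ (by positivity : 0 ≤ 3 * r)] at h2
  rw [Finset.sum_const, Finset.card_range, nsmul_eq_mul, finrank_euclideanSpace_fin,
    ← mul_assoc] at h2
  refine (mul_le_mul_right h2 _).trans ?_
  rw [mul_comm, mul_assoc, ENNReal.mul_inv_cancel ball_ne_zero measure_ball_lt_top.ne, mul_one,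
    ← ENNReal.ofReal_natCast, ← ENNReal.ofReal_mul (Nat.cast_nonneg _),
    show (2 * 3 ^ d : ℝ≥0∞) = ENNReal.ofReal (2 * 3 ^ d) by
      rw [ENNReal.ofReal_mul (by norm_num), ENNReal.ofReal_pow (by norm_num)]; simp,
    ← ENNReal.ofReal_mul (by positivity)]
  refine ENNReal.ofReal_le_ofReal ?_
  have a5 : (⌈1 / r⌉₊ : ℝ) ≤ 2 / r := by
    have b1 := Nat.ceil_lt_add_one (show 0 ≤ 1 / r by positivity)
    have b2 : 1 ≤ 1 / r := by rw [le_div_iff₀ hr]; linarith
    rw [show 2 / r = 1 / r + 1 / r by ring]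
    linarith
  obtain ⟨n, rfl⟩ : ∃ n, d = n + 1 := ⟨d - 1, by omega⟩
  refine (mul_le_mul_of_nonneg_right a5 (by positivity)).trans (le_of_eq ?_)
  rw [Nat.add_sub_cancel, mul_pow]
  field_simp
  ring

theorem norm_sub_le_of_arccos {u s : E d} (hu : ‖u‖ = 1) (hs : ‖s‖ = 1) {ε : ℝ}
    (h : Real.arccos ⟪u, s⟫ ≤ ε) : ‖s - u‖ ≤ ε := by
  have h0 := Real.arccos_nonneg ⟪u, s⟫
  have h1 : |⟪u, s⟫| ≤ 1 := by
    have := abs_real_inner_le_norm u s
    rwa [hu, hs, mul_one] at this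
  have h2 := Real.cos_arccos (abs_le.1 h1).1 (abs_le.1 h1).2
  have h3 := Real.one_sub_sq_div_two_le_cos (x := Real.arccos ⟪u, s⟫)
  refine abs_le_of_sq_le_sq' ?_ (h0.trans h) |>.2
  rw [norm_sub_sq_real, hu, hs, real_inner_comm]
  nlinarith

/-- the uniform measure restricted to a small ball -/
theorem fr_restrict (hd : 1 ≤ d) {β g : ℕ} (hβ : β + g = d - 1) {G : Set (E d)} {u : E d} {ε : ℝ}
    (hε : 0 < ε) (hG : ∀ s ∈ G, ‖s‖ = 1 → ‖s - u‖ ≤ ε) :
    Fr ((sig d).restrict G) β (2 * 3 ^ d * ENNReal.ofReal (ε ^ g)) := by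
  intro x r hr
  rw [Measure.restrict_apply measurableSet_closedBall, mul_assoc,
    ← ENNReal.ofReal_mul (by positivity)]
  rcases le_total r ε with h | h
  · refine ((measure_mono inter_subset_left).trans (fr_sig hd x r hr)).trans
      (mul_le_mul_right (ENNReal.ofReal_le_ofReal ?_) _)
    rw [← hβ, pow_add, mul_comm]
    gcongr
  · have h1 : sig d (closedBall x r ∩ G) ≤ sig d (closedBall u ε) := by
      refine measure_mono_ae ?_
      filter_upwards [ae_sig (d := d)] with s hs hs'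
      exact mem_closedBall_iff_norm.2 (hG s hs'.2 hs)
    refine (h1.trans (fr_sig hd u ε hε)).trans (mul_le_mul_right (ENNReal.ofReal_le_ofReal ?_) _)
    rw [← hβ, pow_add, mul_comm]
    gcongr

/-- few rows leave a reflection ambiguity -/
theorem few_rows (hd : 17 ≤ d) {T : ℕ} (hT : 12 * T ≤ d) (x : Fin T → E d) {ε : ℝ}
    (hε : ε ≤ 1 / 10) {G : Set (E d)} (hG : MeasurableSet G)
    (h : ∀ s ∈ G, ∀ s' ∈ G, ‖s‖ = 1 → ‖s'‖ = 1 → (∀ i, ⟪x i, s⟫ = ⟪x i, s'⟫) →
      ‖s - s'‖ ≤ 2 * ε) : sig d G ≤ 5 / 8 := by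
  have hd1 : 1 ≤ d := by omega
  have := sig_prob hd1
  let V := Submodule.span ℝ (range x)
  have hV : Module.finrank ℝ V ≤ T := by
    have h0 := finrank_range_le_card (R := ℝ) x
    rw [Fintype.card_fin] at h0
    exact h0
  let ρ := V.reflection
  have h1 : sig d (G ∩ ρ ⁻¹' G) ≤
      sig d {s | ‖s - 0‖ ≤ 1 ∧ ‖Vᗮ.starProjection (s - 0)‖ ≤ 1 / 10} := by
    refine measure_mono_ae ?_
    filter_upwards [ae_sig (d := d)] with s hs hs'
    refine ⟨by rw [sub_zero, hs], ?_⟩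
    have e : s - ρ s = (2 : ℝ) • Vᗮ.starProjection s := by
      rw [Submodule.reflection_apply, Submodule.starProjection_orthogonal_val]
      module
    have h2 := h s hs'.1 (ρ s) hs'.2 hs (by rw [ρ.norm_map, hs]) fun i => by
      rw [← sub_eq_zero, ← inner_sub_right, e, real_inner_smul_right,
        Submodule.inner_right_of_mem_orthogonal (K := V) (Submodule.subset_span ⟨i, rfl⟩)
          (Submodule.starProjection_apply_mem _ _), mul_zero]
    rw [e, norm_smul, Real.norm_ofNat] at h2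
    rw [sub_zero]
    linarith
  have h2 := h1.trans (tube_le (fr_sig hd1) V 0 (by norm_num) (by norm_num))
  have h3 : (2 * 3 ^ d : ℝ≥0∞) * ENNReal.ofReal ((2 * (1 / 10)) ^ (d - 1) *
      ((1 + 1 / 10) / (1 / 10)) ^ Module.finrank ℝ V) ≤ ENNReal.ofReal (1 / 4) := by
    rw [show (2 * 3 ^ d : ℝ≥0∞) = ENNReal.ofReal (2 * 3 ^ d) by
      rw [ENNReal.ofReal_mul (by norm_num), ENNReal.ofReal_pow (by norm_num)]; simp,
      ← ENNReal.ofReal_mul (by positivity)]
    refine ENNReal.ofReal_le_ofReal ?_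
    have a1 : ((1 + 1 / 10) / (1 / 10) : ℝ) ^ Module.finrank ℝ V ≤ (4 / 3) ^ d :=
      calc _ ≤ (((4 / 3) : ℝ) ^ 12) ^ Module.finrank ℝ V :=
            pow_le_pow_left₀ (by norm_num) (by norm_num) _
        _ = (4 / 3) ^ (12 * Module.finrank ℝ V) := (pow_mul _ _ _).symm
        _ ≤ _ := pow_le_pow_right₀ (by norm_num) (by omega)
    have a2 : ((4 / 5) : ℝ) ^ d ≤ (4 / 5) ^ 17 :=
      pow_le_pow_of_le_one (by norm_num) (by norm_num) hd
    obtain ⟨n, rfl⟩ : ∃ n, d = n + 1 := ⟨d - 1, by omega⟩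
    rw [Nat.add_sub_cancel]
    calc _ ≤ 2 * 3 ^ (n + 1) * ((2 * (1 / 10)) ^ n * (4 / 3 : ℝ) ^ (n + 1)) := by gcongr
      _ = 10 * (4 / 5) ^ (n + 1) := by
          rw [show (4 / 5 : ℝ) = 3 * (2 * (1 / 10)) * (4 / 3) by norm_num,
            mul_pow (3 * (2 * (1 / 10)) : ℝ), mul_pow (3 : ℝ), pow_succ (2 * (1 / 10) : ℝ)]
          generalize (2 * (1 / 10) : ℝ) ^ n = A
          ring
      _ ≤ 10 * (4 / 5) ^ 17 := by gcongr
      _ ≤ 1 / 4 := by norm_num
  have h4 := measure_union_add_inter (μ := sig d) G (ρ.continuous.measurable hG)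
  rw [sig_preimage hd1 ρ hG] at h4
  have h5 : sig d G + sig d G ≤ 1 + ENNReal.ofReal (1 / 4) :=
    h4 ▸ add_le_add prob_le_one (h2.trans h3)
  have h6 : (1 : ℝ≥0∞) + ENNReal.ofReal (1 / 4) = 2 * (5 / 8) := by
    rw [← ENNReal.toReal_eq_toReal_iff' (by finiteness) (by finiteness),
      ENNReal.toReal_add (by finiteness) (by finiteness)]
    norm_num
  rw [← two_mul, h6] at h5
  exact (ENNReal.mul_le_mul_iff_right (by norm_num) (by norm_num)).1 h5

end Vale.Agent.P309b
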