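import Vale.Agent.P309b.Machine
import Vale.Agent.P309b.Sphere

/-! The sample lower bound. -/

namespace Vale.Agent.P309b

open MeasureTheory ProbabilityTheory Set Metric
open scoped RealInnerProductSpace ENNReal

variable {d M : ℕ} {Ω : Type*} [MeasurableSpace Ω] (L : Learner d M Ω)

/-- one step on extended states (index, state, stopped) -/
def nx (ω : Ω) (z : ℕ × Fin (2 ^ M) × Bool) (p : E d × ℝ) : ℕ × Fin (2 ^ M) × Bool :=
  if z.2.2 = true then z else (z.1 + 1, L.step z.1 z.2.1 (ω, p), L.stop z.1 z.2.1 (ω, p))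

theorem measurable_nx (z : ℕ × Fin (2 ^ M) × Bool) :
    Measurable fun q : Ω × (E d × ℝ) => nx L q.1 z q.2 := by
  unfold nx
  split_ifs
  · exact measurable_const
  · exact measurable_const.prodMk ((L.measurable_step _ _).prodMk (L.measurable_stop _ _))

theorem foldl_stopped (ω : Ω) (t : ℕ) (w : Fin (2 ^ M)) (l : List (E d × ℝ)) :
    l.foldl (nx L ω) (t, w, true) = (t, w, true) := by
  induction l with
  | nil => rfl
  | cons p l ih => exact ih

theorem run_eq (ω : Ω) (l : List (E d × ℝ)) : ∀ t w, L.run ω t w l =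
    L.out (l.foldl (nx L ω) (t, w, false)).1 (l.foldl (nx L ω) (t, w, false)).2.1 ω := by
  induction l with
  | nil => intro t w; rfl
  | cons p l ih =>
    intro t w
    have e : nx L ω (t, w, false) p = (t + 1, L.step t w (ω, p), L.stop t w (ω, p)) := rfl
    rw [List.foldl_cons, e, Learner.run]
    cases h : L.stop t w (ω, p)
    · rw [if_neg (by simp), ih]
    · rw [if_pos rfl, foldl_stopped]

theorem foldl_time (ω : Ω) (l : List (E d × ℝ)) : ∀ z : ℕ × Fin (2 ^ M) × Bool,
    z.1 ≤ (l.foldl (nx L ω) z).1 ∧ (l.foldl (nx L ω) z).1 ≤ z.1 + l.length := by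
  induction l with
  | nil => intro z; simp
  | cons p l ih =>
    intro z
    have h1 := ih (nx L ω z p)
    have h2 : z.1 ≤ (nx L ω z p).1 ∧ (nx L ω z p).1 ≤ z.1 + 1 := by
      unfold nx
      split_ifs <;> simp
    rw [List.foldl_cons, List.length_cons]
    omega

/-- the output rule on extended states -/
def oz (ω : Ω) (z : ℕ × Fin (2 ^ M) × Bool) : E d := L.out z.1 z.2.1 ω

theorem estimate_eq {T : ℕ} (ω : Ω) (s : Sph d) (x : Fin T → E d) :
    (L.estimate ω s x : E d) = oz L ω (fin (nx L ω) (0, L.init ω, false) (x, lab x s)) :=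
  congrArg Subtype.val (run_eq L ω _ _ _)

theorem measurableSet_good (T : ℕ) (ε : ℝ) :
    MeasurableSet {q : Ω × Sph d × (Fin T → E d) |
      Real.arccos ⟪(L.estimate q.1 q.2.1 q.2.2 : E d), (q.2.1 : E d)⟫ ≤ ε} := by
  have h1 : Measurable fun q : Ω × Sph d × (Fin T → E d) =>
      fin (nx L q.1) (0, L.init q.1, false) (q.2.2, lab q.2.2 q.2.1) :=
    measurable_foldl (fun q : Ω × Sph d × (Fin T → E d) => nx L q.1)
      (fun z => (measurable_nx L z).comp (measurable_fst.fst.prodMk measurable_snd)) T _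
      (measurable_const.prodMk ((L.measurable_init.comp measurable_fst).prodMk measurable_const))
      (fun i q => (q.2.2 i, ⟪q.2.2 i, (q.2.1 : E d)⟫)) fun i => by fun_prop
  have h2 : Measurable fun q : Ω × Sph d × (Fin T → E d) => (L.estimate q.1 q.2.1 q.2.2 : E d) := by
    simp_rw [estimate_eq]
    exact measurable_eval (g := fun z (q : Ω × Sph d × (Fin T → E d)) => oz L q.1 z)
      (fun z => measurable_subtype_coe.comp ((L.measurable_out _ _).comp measurable_fst)) h1
  exact measurableSet_le (Real.continuous_arccos.measurable.comp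
    (h2.inner (measurable_subtype_coe.comp measurable_snd.fst))) measurable_const

theorem measurable_nx' (ω : Ω) (z : ℕ × Fin (2 ^ M) × Bool) : Measurable (nx L ω z) :=
  (measurable_nx L z).comp measurable_prodMk_left

theorem section_few (hd : 17 ≤ d) {T : ℕ} (hT : 12 * T ≤ d) {ε : ℝ} (hε : ε ≤ 1 / 10) (ω : Ω) :
    ((unif d).prod (Measure.pi fun _ : Fin T => gam d))
      {q | Real.arccos ⟪(L.estimate ω q.1 q.2 : E d), (q.1 : E d)⟫ ≤ ε} ≤ 5 / 8 := by
  have := unif_prob (d := d) (by omega)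
  have hm : MeasurableSet {q : Sph d × (Fin T → E d) |
      Real.arccos ⟪(L.estimate ω q.1 q.2 : E d), (q.1 : E d)⟫ ≤ ε} :=
    measurable_prodMk_left (measurableSet_good L T ε)
  rw [Measure.prod_apply_symm hm]
  refine (lintegral_mono fun x => ?_).trans (by rw [lintegral_const, measure_univ, mul_one])
  let u : E d → E d := fun s => oz L ω (fin (nx L ω) (0, L.init ω, false) (x, lab x s))
  have hu : Measurable u := (measurable_of_countable (oz L ω)).comp
    ((measurable_fin (measurable_nx' L ω) T _).comp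
      (measurable_const.prodMk (measurable_lab measurable_const measurable_id)))
  have hG : MeasurableSet {s | Real.arccos ⟪u s, s⟫ ≤ ε} :=
    measurableSet_le (Real.continuous_arccos.measurable.comp (hu.inner measurable_id))
      measurable_const
  have h1 := few_rows hd hT x hε hG fun s hs s' hs' h1 h2 h3 => by
    have e : u s' = u s := by
      have : lab x s' = lab x s := funext fun i => (h3 i).symm
      simp only [u, this]
    have hn : ‖u s‖ = 1 := norm_eq_of_mem_sphere (L.out _ _ ω)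
    have a1 := norm_sub_le_of_arccos hn h1 hs
    have a2 := norm_sub_le_of_arccos hn h2 (e ▸ show Real.arccos ⟪u s', s'⟫ ≤ ε from hs')
    rw [← dist_eq_norm] at a1 a2 ⊢
    linarith [dist_triangle_right s s' (u s)]
  rw [sig, Measure.map_apply measurable_subtype_coe hG] at h1
  refine le_trans (le_of_eq ?_) h1
  congr 1
  ext s
  simp only [mem_preimage, mem_ofPred_eq, estimate_eq, u]

theorem section_main {T J k m β g a : ℕ} (hd : 1 ≤ d) (hk : k ≤ d) (hβ : k + m + 1 ≤ β)
    (hg : β + g = d - 1) (ha0 : a ≠ 0) (ha : (k + 1) * (2 ^ M * 2) ≤ a ^ m) (hT : T ≤ J * k)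
    {ε : ℝ} (hε : 0 < ε) (ω : Ω) :
    ((unif d).prod (Measure.pi fun _ : Fin T => gam d))
      {q | Real.arccos ⟪(L.estimate ω q.1 q.2 : E d), (q.1 : E d)⟫ ≤ ε} ≤
      ((a * (2 ^ (m + 1) * 4 ^ β) * 32 ^ d + 1 : ℕ) : ℝ≥0∞) ^ J *
        (2 * 3 ^ d * ENNReal.ofReal (ε ^ g)) := by
  have := sig_prob hd
  have hm : MeasurableSet {q : Sph d × (Fin T → E d) |
      Real.arccos ⟪(L.estimate ω q.1 q.2 : E d), (q.1 : E d)⟫ ≤ ε} :=
    measurable_prodMk_left (measurableSet_good L T ε)
  let G : ℕ × Fin (2 ^ M) × Bool → Set (E d) := fun z => {s | Real.arccos ⟪oz L ω z, s⟫ ≤ ε}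
  have hG : ∀ z, MeasurableSet (G z) := fun z =>
    measurableSet_le (Real.continuous_arccos.measurable.comp (measurable_const.inner measurable_id))
      measurable_const
  let g0 : ℕ × Fin (2 ^ M) × Bool → E d → ℝ≥0∞ := fun z => (G z).indicator 1
  have hg0 : ∀ z, Measurable (g0 z) := fun z => measurable_one.indicator (hG z)
  have h1 := fr_iter (measurable_nx' L ω) (sig d) hg0
    (fun z s => indicator_apply_le' (fun _ => le_rfl) fun _ => zero_le) (β := β) (k := k) (m := m)
    (F := 2 * 3 ^ d * ENNReal.ofReal (ε ^ g))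
    (fun z => by
      rw [withDensity_indicator_one (hG z)]
      exact fr_restrict hd hg hε fun s hs h1 =>
        norm_sub_le_of_arccos (norm_eq_of_mem_sphere (L.out _ _ ω)) h1 hs)
    (mul_ne_zero (by positivity) (by rw [Ne, ENNReal.ofReal_eq_zero, not_le]; positivity))
    (by finiteness) hβ hd hk ha0
    (fun z k' hk' => ⟨Finset.Icc z.1 (z.1 + k') ×ˢ Finset.univ, by
      refine le_trans ?_ ha
      simp only [Finset.card_product, Nat.card_Icc, Finset.card_univ, Fintype.card_prod,
        Fintype.card_fin, Fintype.card_bool]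
      exact Nat.mul_le_mul_right _ (by omega), fun p => by
      have h2 := foldl_time L ω (List.ofFn fun i => (p.1 i, p.2 i)) z
      rw [List.length_ofFn] at h2
      exact Finset.mem_product.2 ⟨Finset.mem_Icc.2 h2, Finset.mem_univ _⟩⟩)
    J T hT (0, L.init ω, false) 0 1 one_pos
  rw [one_pow, ENNReal.ofReal_one, mul_one, withDensity_apply _ measurableSet_closedBall,
    Measure.restrict_eq_self_of_ae_mem (by
      filter_upwards [ae_sig (d := d)] with s hs using mem_closedBall_zero_iff.2 hs.le), sig,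
    lintegral_map (measurable_Op (measurable_nx' L ω) T hg0 _) measurable_subtype_coe] at h1
  refine le_trans (le_of_eq ?_) h1
  rw [Measure.prod_apply hm]
  refine lintegral_congr fun s => ?_
  rw [← lintegral_indicator_one (measurable_prodMk_left hm)]
  refine lintegral_congr fun x => ?_
  simp only [g0, G, indicator, mem_preimage, mem_ofPred_eq, estimate_eq, Pi.one_apply]

variable {L}

theorem Learner.Succeeds.le {P : Measure Ω} [IsProbabilityMeasure P] {T : ℕ} {ε : ℝ}
    (h : L.Succeeds P T ε) (hd : 1 ≤ d) {c : ℝ≥0∞}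
    (hc : ∀ ω, ((unif d).prod (Measure.pi fun _ : Fin T => gam d))
      {q | Real.arccos ⟪(L.estimate ω q.1 q.2 : E d), (q.1 : E d)⟫ ≤ ε} ≤ c) : 2 / 3 ≤ c := by
  have := unif_prob hd
  refine le_trans h ?_
  rw [Measure.prod_apply (measurableSet_good L T ε)]
  exact (lintegral_mono hc).trans (by rw [lintegral_const, measure_univ, mul_one])

theorem numeric {d M T J e g : ℕ} {ε : ℝ} (hd : 17 ≤ d) (hε : 0 < ε) (hε1 : ε ≤ 1)
    (hT : d < 12 * T) (hJ : d * J ≤ 17 * T) (he : d * e ≤ 8 * d ^ 2 + 5 * M) (hg : d ≤ 4 * g)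
    (h : (2 : ℝ) / 3 ≤ (2 ^ e) ^ J * (2 * 3 ^ d * ε ^ g)) :
    (d : ℝ) * Real.log (1 / ε) ≤ 640 * ((1 + M / d ^ 2) * T) := by
  have hd0 : (17 : ℝ) ≤ d := by exact_mod_cast hd
  have hT' : (d : ℝ) ≤ 12 * T := by exact_mod_cast hT.le
  have hJ' : (d : ℝ) * J ≤ 17 * T := by exact_mod_cast hJ
  have he' : (d : ℝ) * e ≤ 8 * d ^ 2 + 5 * M := by exact_mod_cast he
  have hg' : (d : ℝ) ≤ 4 * g := by exact_mod_cast hg
  have hl : 0 ≤ Real.log (1 / ε) := Real.log_nonneg (by rw [le_div_iff₀ hε]; linarith)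
  have h1 : (1 / ε) ^ g ≤ 2 ^ (e * J) * 3 ^ (d + 1) := by
    rw [one_div, inv_pow, inv_le_iff_one_le_mul₀ (by positivity), pow_mul, pow_succ]
    linarith
  have h2 := Real.log_le_log (by positivity) h1
  rw [Real.log_pow, Real.log_mul (by positivity) (by positivity), Real.log_pow, Real.log_pow] at h2
  have l2 : Real.log 2 ≤ 1 := by linarith [Real.log_two_lt_d9]
  have l3 : Real.log 3 ≤ 3 / 2 := by
    have a1 : Real.log 3 ≤ Real.log (2 ^ 2) := Real.log_le_log (by norm_num) (by norm_num)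
    rw [Real.log_pow] at a1
    push_cast at a1
    linarith [Real.log_two_lt_d9]
  push_cast at h2
  have h3 : (e : ℝ) * J * Real.log 2 ≤ e * J := mul_le_of_le_one_right (by positivity) l2
  have h4 : ((d : ℝ) + 1) * Real.log 3 ≤ 24 * T := by nlinarith
  have h5 : (e : ℝ) * J ≤ (8 + 5 * (M / d ^ 2)) * (17 * T) := by
    have a1 : (e : ℝ) ≤ d * (8 + 5 * (M / d ^ 2)) := by
      rw [← mul_le_mul_iff_right₀ (show (0 : ℝ) < d by linarith)]
      refine he'.trans (le_of_eq ?_)
      field_simp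
    calc (e : ℝ) * J ≤ d * (8 + 5 * (M / d ^ 2)) * J := by gcongr
      _ = (8 + 5 * (M / d ^ 2)) * (d * J) := by ring
      _ ≤ _ := by gcongr
  have h6 : (0 : ℝ) ≤ M / d ^ 2 * T := by positivity
  nlinarith [mul_le_mul_of_nonneg_right hg' hl]

theorem lower_bound (hd : 17 ≤ d) {P : Measure Ω} [IsProbabilityMeasure P] {T : ℕ} {ε : ℝ}
    (hε : 0 < ε) (hε1 : ε ≤ 1 / 10) (h : L.Succeeds P T ε) :
    (d : ℝ) * Real.log (1 / ε) ≤ 640 * ((1 + M / d ^ 2) * T) := by
  have hT : d < 12 * T := by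
    by_contra hT
    have h1 := h.le (by omega) (section_few L hd (not_lt.1 hT) hε1)
    rw [← ENNReal.toReal_le_toReal (by finiteness) (by finiteness)] at h1
    norm_num at h1
  set k := d / 4 with hk
  have hk0 : 0 < k := by omega
  have hM : M ≤ (M / k + 1) * k := by
    have := Nat.lt_div_mul_add (a := M) hk0
    rw [add_mul]
    omega
  have hTJ : T ≤ (T / k + 1) * k := by
    have := Nat.lt_div_mul_add (a := T) hk0
    rw [add_mul]
    omega
  have ha : (k + 1) * (2 ^ M * 2) ≤ (2 ^ (M / k + 3)) ^ k := by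
    have a1 : k + 1 ≤ 2 ^ k := Nat.lt_two_pow_self
    calc _ ≤ 2 ^ k * (2 ^ ((M / k + 1) * k) * 2 ^ k) :=
          Nat.mul_le_mul a1 (Nat.mul_le_mul (Nat.pow_le_pow_right (by norm_num) hM) (by omega))
      _ = _ := by
          rw [← pow_mul, ← pow_add, ← pow_add]
          congr 1
          ring
  have h1 := h.le (by omega) (section_main L (k := k) (m := k) (β := k + k + 1)
    (g := d - 1 - (k + k + 1)) (by omega) (by omega) le_rfl (by omega) (by positivity) ha hTJ hε)
  have hC : 2 ^ (M / k + 3) * (2 ^ (k + 1) * 4 ^ (k + k + 1)) * 32 ^ d + 1 ≤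
      2 ^ (M / k + 8 * d) := by
    have e : 2 ^ (M / k + 3) * (2 ^ (k + 1) * 4 ^ (k + k + 1)) * 32 ^ d =
        2 ^ (M / k + 3 + (k + 1) + 2 * (k + k + 1) + 5 * d) := by
      rw [show 4 = 2 ^ 2 by norm_num, show 32 = 2 ^ 5 by norm_num, ← pow_mul, ← pow_mul]
      ring
    rw [e]
    exact Nat.pow_lt_pow_right (by norm_num) (by omega)
  have h2 := h1.trans (mul_le_mul_left (pow_le_pow_left' (Nat.cast_le.2 hC) _) _)
  rw [← ENNReal.toReal_le_toReal (by finiteness) (by finiteness)] at h2
  simp only [ENNReal.toReal_mul, ENNReal.toReal_pow, ENNReal.toReal_div,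
    ENNReal.toReal_ofNat, ENNReal.toReal_ofReal (pow_nonneg hε.le _), Nat.cast_pow,
    Nat.cast_ofNat] at h2
  have b1 := Nat.div_mul_le_self T k
  have b2 := Nat.div_mul_le_self M k
  have b3 : d ≤ 5 * k := by omega
  refine numeric hd hε (by linarith) hT ?_ ?_ (by omega) h2
  · have : d * (T / k) ≤ 5 * k * (T / k) := Nat.mul_le_mul_right _ b3
    nlinarith
  · have : d * (M / k) ≤ 5 * k * (M / k) := Nat.mul_le_mul_right _ b3
    nlinarith

end Vale.Agent.P309b
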